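import Mathlib

namespace Vale.Agent.P309

open MeasureTheory ProbabilityTheory Metric
open scoped ENNReal RealInnerProductSpace

/-- Euclidean space of dimension `d`. -/
abbrev Euc (d : ℕ) : Type := EuclideanSpace ℝ (Fin d)

/-- The unit sphere. -/
abbrev Sph (d : ℕ) : Type := sphere (0 : Euc d) 1

/-- The uniform probability measure on the unit sphere. -/
noncomputable def unifSphere (d : ℕ) : Measure (Sph d) :=
  ((volume : Measure (Euc d)).toSphere Set.univ)⁻¹ • (volume : Measure (Euc d)).toSphere

/-- A one-pass randomized learner with `N` memory states. The Boolean is the stopping decision. -/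
structure Learner (d N : ℕ) where
  init : PMF (Fin N × Bool)
  step : ℕ → Fin N → Euc d × ℝ → PMF (Fin N × Bool)
  step_measurable : ∀ t m z, Measurable fun w => step t m w z
  out : ℕ → Fin N → Measure (Sph d)
  out_prob : ∀ t m, IsProbabilityMeasure (out t m)

/-- Given the signal `s`, the probability that the learner reads the first `t` pairs and is then
in state `z.1` with stopping decision `z.2`. -/
noncomputable def Learner.law {d N : ℕ} (L : Learner d N) (s : Euc d) : ℕ → Fin N × Bool → ℝ≥0∞
  | 0 => fun z => L.init z
  | t + 1 => fun z => ∑ m, L.law s t (m, false) *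
      ∫⁻ x, L.step t m (x, ⟪x, s⟫) z ∂stdGaussian (Euc d)

/-- The points of the sphere within angle `ε` of `s`. -/
def near {d : ℕ} (ε : ℝ) (s : Sph d) : Set (Sph d) := {u | Real.arccos ⟪u.1, s.1⟫ ≤ ε}

/-- The success probability with horizon `T` and accuracy `ε` for a uniformly random signal. -/
noncomputable def Learner.success {d N : ℕ} (L : Learner d N) (T : ℕ) (ε : ℝ) : ℝ≥0∞ :=
  ∫⁻ s, (∑ t ∈ Finset.range (T + 1), ∑ m, L.law s.1 t (m, true) * L.out t m (near ε s)) +
    ∑ m, L.law s.1 T (m, false) * L.out T m (near ε s) ∂unifSphere d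

end Vale.Agent.P309
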