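import Vale.Agent.P309.Energy

namespace Vale.Agent.P309

open MeasureTheory ProbabilityTheory Metric Set Filter
open scoped ENNReal RealInnerProductSpace

variable {d k γ : ℕ} {K : ℝ≥0∞}

/-- The indicator of a dyadic cube. -/
noncomputable def cu (a : ℕ × (Fin d → ℤ)) : Euc d → ℝ≥0∞ := (key a.1 ⁻¹' {a.2}).indicator 1

lemma meas_cu (a : ℕ × (Fin d → ℤ)) : Measurable (cu a) :=
  measurable_one.indicator (meas_cube _ _)

/-- On the sphere `f` is dominated by cubes and a density of total cost at most `v`. -/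
def Dom (γ : ℕ) (K : ℝ≥0∞) (f : Euc d → ℝ≥0∞) (v : ℝ≥0∞) : Prop :=
  ∃ (c : ℕ × (Fin d → ℤ) → ℝ≥0∞) (h : Euc d → ℝ≥0∞), Measurable h ∧
    (∀ s, ‖s‖ = 1 → f s ≤ ∑' a, c a * cu a s + h s) ∧
    ∑' a, c a * 2⁻¹ ^ (a.1 * γ) + K * ∫⁻ s, h s ∂sig d ≤ v

lemma Dom.mono {f g : Euc d → ℝ≥0∞} {v w : ℝ≥0∞} (h : Dom γ K f v)
    (hf : ∀ s, ‖s‖ = 1 → g s ≤ f s) (hv : v ≤ w) : Dom γ K g w := by
  obtain ⟨c, h, h1, h2, h3⟩ := h
  exact ⟨c, h, h1, fun s hs => (hf s hs).trans (h2 s hs), h3.trans hv⟩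

lemma Dom.tsum {ι : Type} [Countable ι] {f : ι → Euc d → ℝ≥0∞} {v : ι → ℝ≥0∞}
    (h : ∀ i, Dom γ K (f i) (v i)) : Dom γ K (fun s => ∑' i, f i s) (∑' i, v i) := by
  choose c h h1 h2 h3 using h
  refine ⟨fun a => ∑' i, c i a, fun s => ∑' i, h i s, Measurable.tsum h1,
    fun s hs => ?_, ?_⟩
  · refine (ENNReal.tsum_le_tsum fun i => h2 i s hs).trans (le_of_eq ?_)
    simp only [← ENNReal.tsum_mul_right]
    rw [ENNReal.tsum_add, ENNReal.tsum_comm]
  · refine le_trans (le_of_eq ?_) (ENNReal.tsum_le_tsum h3)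
    simp only [← ENNReal.tsum_mul_right]
    rw [ENNReal.tsum_add, ENNReal.tsum_comm, lintegral_tsum fun i => (h1 i).aemeasurable,
      ENNReal.tsum_mul_left]

lemma Dom.sum {ι : Type} [Fintype ι] {f : ι → Euc d → ℝ≥0∞} {v : ι → ℝ≥0∞}
    (h : ∀ i, Dom γ K (f i) (v i)) : Dom γ K (fun s => ∑ i, f i s) (∑ i, v i) := by
  simpa only [tsum_fintype] using Dom.tsum h

lemma Dom.add {f g : Euc d → ℝ≥0∞} {v w : ℝ≥0∞} (h : Dom γ K f v) (h' : Dom γ K g w) :
    Dom γ K (fun s => f s + g s) (v + w) := by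
  simpa using Dom.sum (f := fun b : Bool => cond b f g) (v := fun b => cond b v w)
    fun b => by cases b <;> assumption

lemma Dom.smul {f : Euc d → ℝ≥0∞} {v : ℝ≥0∞} (h : Dom γ K f v) (a : ℝ≥0∞) :
    Dom γ K (fun s => a * f s) (a * v) := by
  obtain ⟨c, h, h1, h2, h3⟩ := h
  refine ⟨fun b => a * c b, fun s => a * h s, h1.const_mul a, fun s hs => ?_, ?_⟩
  · refine (mul_le_mul_right (h2 s hs) a).trans (le_of_eq ?_)
    simp only [mul_assoc]
    rw [ENNReal.tsum_mul_left, mul_add]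
  · refine le_trans (le_of_eq ?_) (mul_le_mul_right h3 a)
    simp only [mul_assoc]
    rw [ENNReal.tsum_mul_left, mul_add, lintegral_const_mul _ h1, mul_left_comm]

lemma dom_cu (a : ℕ × (Fin d → ℤ)) : Dom γ K (cu a) (2⁻¹ ^ (a.1 * γ)) := by
  classical
  refine ⟨Pi.single a 1, 0, measurable_zero, fun s _ => ?_, ?_⟩
  · refine le_add_right (le_trans ?_ (ENNReal.le_tsum a))
    simp
  · rw [tsum_eq_single a fun b hb => by simp [hb]]
    simp

lemma dom_dens {h : Euc d → ℝ≥0∞} (hh : Measurable h) : Dom γ K h (K * ∫⁻ s, h s ∂sig d) :=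
  ⟨0, h, hh, fun s _ => le_add_self, by simp⟩

lemma ae_sig : ∀ᵐ s ∂sig d, ‖s‖ = 1 :=
  (ae_map_iff measurable_subtype_coe.aemeasurable
    (isClosed_eq continuous_norm continuous_const).measurableSet).2
    (ae_of_all _ fun u => norm_eq_of_mem_sphere u)

/-- The dyadic Frostman lemma. -/
lemma frostman (hK : K ≠ ⊤) {S : Set (Euc d)} (hS : MeasurableSet S) (n : ℕ) :
    ∀ j, ∃ ν : Measure (Euc d), ν ≤ K • (sig d).restrict S ∧
      (∀ i < n, ∀ z, ν (key (j + i) ⁻¹' {z}) ≤ 2⁻¹ ^ ((j + i) * γ)) ∧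
      ∀ Z, Dom γ K ((key j ⁻¹' Z ∩ S).indicator 1) (ν (key j ⁻¹' Z)) := by
  classical
  induction n with
  | zero =>
    refine fun j => ⟨_, le_rfl, fun i hi => absurd hi (Nat.not_lt_zero _), fun Z => ?_⟩
    have hm := (meas_cube (d := d) j Z).inter hS
    refine (dom_dens (measurable_one.indicator hm)).mono (fun _ _ => le_rfl) (le_of_eq ?_)
    rw [lintegral_indicator_one hm, Measure.smul_apply, Measure.restrict_apply (meas_cube j Z),
      smul_eq_mul]
  | succ n ih =>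
    intro j
    obtain ⟨ν, h1, h2, h3⟩ := ih (j + 1)
    obtain ⟨θ, hθ⟩ : ∃ θ : (Fin d → ℤ) → ℝ≥0∞, θ = fun z =>
      if ν (key j ⁻¹' {z}) ≤ 2⁻¹ ^ (j * γ) then 1 else 2⁻¹ ^ (j * γ) / ν (key j ⁻¹' {z}) :=
      ⟨_, rfl⟩
    have hle : (ν.withDensity fun s => θ (key j s)) ≤ ν := by
      nth_rewrite 2 [← withDensity_one (μ := ν)]
      refine withDensity_mono (ae_of_all _ fun s => ?_)
      simp only [hθ, Pi.one_apply]
      split_ifs with h
      · exact le_rfl
      · exact ENNReal.div_le_of_le_mul (by rw [one_mul]; exact (not_le.1 h).le)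
    have hz : ∀ z, (ν.withDensity fun s => θ (key j s)) (key j ⁻¹' {z}) =
        min (ν (key j ⁻¹' {z})) (2⁻¹ ^ (j * γ)) := by
      intro z
      rw [withDensity_apply _ (meas_cube j _), setLIntegral_congr_fun (meas_cube j _)
        (g := fun _ => θ z) fun s hs => by rw [show key j s = z from hs], setLIntegral_const, hθ]
      beta_reduce
      split_ifs with h
      · rw [one_mul, min_eq_left h]
      · rw [min_eq_right (not_le.1 h).le, ENNReal.div_mul_cancel (ne_bot_of_gt (not_le.1 h))]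
        refine ne_top_of_le_ne_top ?_ (h1 _)
        rw [Measure.smul_apply, smul_eq_mul]
        exact ENNReal.mul_ne_top hK (measure_ne_top _ _)
    refine ⟨_, hle.trans h1, fun i hi z => ?_, fun Z => ?_⟩
    · rcases i with _ | i
      · exact (hz z).trans_le (min_le_right _ _)
      · refine (hle _).trans ?_
        rw [show j + (i + 1) = j + 1 + i by omega]
        exact h2 i (by omega) z
    · rw [← tsum_measure_preimage_singleton (to_countable Z) fun y _ => meas_cube j _]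
      refine (Dom.tsum (f := fun z : Z => (key j ⁻¹' {z.1} ∩ S).indicator 1) fun z => ?_).mono
        (fun s _ => ?_) le_rfl
      · rw [hz]
        rcases le_total (ν (key j ⁻¹' {z.1})) (2⁻¹ ^ (j * γ)) with h | h
        · have h4 : key (d := d) j ⁻¹' {z.1} =
              key (j + 1) ⁻¹' {y | (fun i => y i / 2) = z.1} := by
            ext s
            rw [mem_preimage, key_succ]
            rfl
          rw [min_eq_left h, h4]
          exact h3 _
        · rw [min_eq_right h]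
          exact (dom_cu (j, z.1)).mono
            (fun s _ => indicator_le_indicator_of_subset inter_subset_left (fun _ => bot_le) s)
            le_rfl
      · by_cases h : s ∈ key j ⁻¹' Z ∩ S
        · refine le_trans (le_of_eq ?_) (ENNReal.le_tsum ⟨key j s, h.1⟩)
          rw [indicator_of_mem h, indicator_of_mem (by exact ⟨rfl, h.2⟩)]
        · rw [indicator_of_notMem h]; exact bot_le

lemma dom_one (hd : 0 < d) (hK : K ≠ ⊤) : Dom (d := d) γ K (fun _ => 1) (14 ^ d) := by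
  obtain ⟨ν, h1, h2, h3⟩ := frostman (d := d) (γ := γ) hK MeasurableSet.univ 1 0
  refine (h3 univ).mono (fun s _ => by simp) ?_
  have h4 := meas_tube hd (j := 0) (h2 0 one_pos) (EuclideanSpace.basisFun (Fin d) ℝ)
    (Nat.zero_le d) 0 le_rfl
  simp only [zero_add, zero_mul, pow_zero, sub_zero, mul_one, one_mul] at h4
  rw [ENNReal.ofReal_pow (by norm_num), ENNReal.ofReal_ofNat] at h4
  refine le_trans (measure_mono_ae ?_) h4
  rw [Measure.restrict_univ] at h1
  refine (Measure.absolutelyContinuous_of_le_smul h1).ae_le (ae_sig.mono fun s hs _ => ?_)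
  exact ⟨hs.le, (norm_tl_le _ _ _).trans hs.le⟩

lemma sig_cube (hd : 0 < d) (j : ℕ) (z : Fin d → ℤ) :
    sig d (key j ⁻¹' {z}) ≤ 3 ^ d * 2⁻¹ ^ (j * (d - 1)) := by
  rcases (key (d := d) j ⁻¹' {z}).eq_empty_or_nonempty with h | ⟨x, hx⟩
  · rw [h, measure_empty]; exact bot_le
  refine (measure_mono (t := closedBall x (2⁻¹ ^ j)) fun s hs => ?_).trans
    ((sig_ball hd x (by positivity)).trans (le_of_eq ?_))
  · rw [mem_closedBall, dist_eq_norm]
    exact key_dist (hs.trans hx.symm)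
  · rw [ENNReal.ofReal_mul (by positivity), ← pow_mul, ofReal_half,
      ENNReal.ofReal_pow (by norm_num), ENNReal.ofReal_ofNat]

lemma dom_ball {β J : ℕ} (hd : β + γ + 1 = d) {f : Euc d → ℝ≥0∞} {v : ℝ≥0∞}
    (h : Dom γ (2 ^ (J * β)) f v) (u : Euc d) {ε : ℝ} (hε : 2⁻¹ ^ J ≤ ε) :
    ∫⁻ s in closedBall u ε, f s ∂sig d ≤ 3 ^ d * ENNReal.ofReal ε ^ β * v := by
  obtain ⟨c, h, h1, h2, h3⟩ := h
  have hε0 : 0 < ε := lt_of_lt_of_le (by positivity) hε
  have hd1 : d - 1 = β + γ := by omega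
  refine (lintegral_mono_ae (ae_restrict_of_ae (ae_sig.mono h2))).trans ?_
  refine le_trans ?_ (mul_le_mul_right h3 _)
  rw [lintegral_add_right _ h1, lintegral_tsum fun a => ((meas_cu a).const_mul _).aemeasurable,
    mul_add, ← ENNReal.tsum_mul_left]
  refine add_le_add (ENNReal.tsum_le_tsum fun a => ?_) ?_
  · rw [lintegral_const_mul _ (meas_cu a), cu, lintegral_indicator_one (meas_cube _ _),
      Measure.restrict_apply (meas_cube _ _), mul_left_comm]
    refine mul_le_mul_right ?_ _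
    rcases le_total (2⁻¹ ^ a.1) ε with h | h
    · refine (measure_mono inter_subset_left).trans ((sig_cube (by omega) _ _).trans ?_)
      rw [hd1, mul_add, pow_add, mul_assoc, pow_mul, ← ofReal_half]
      gcongr
    · refine (measure_mono inter_subset_right).trans ((sig_ball (by omega) u hε0).trans ?_)
      rw [ENNReal.ofReal_mul (by positivity), ENNReal.ofReal_pow (by norm_num),
        ENNReal.ofReal_pow hε0.le, ENNReal.ofReal_ofNat, hd1, pow_add, mul_assoc, pow_mul,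
        ← ofReal_half]
      gcongr
  · refine (setLIntegral_le_lintegral _ _).trans ?_
    rw [← mul_assoc]
    refine le_mul_of_one_le_left' ?_
    calc (1 : ℝ≥0∞) = 1 * 2⁻¹ ^ (J * β) * 2 ^ (J * β) := by
          rw [one_mul, mul_comm, two_cancel]
      _ ≤ _ := by
          rw [pow_mul, ← ofReal_half]
          gcongr
          exact one_le_pow₀ (by norm_num)

lemma layer {g : ℝ≥0∞} (hg : g ≤ 1) (L : ℕ) :
    g ≤ 2⁻¹ ^ L + ∑ i : Fin L, 2⁻¹ ^ (i : ℕ) * if 2⁻¹ ^ ((i : ℕ) + 1) < g then 1 else 0 := by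
  induction L with
  | zero => simpa using hg
  | succ L ih =>
    rcases le_or_gt g (2⁻¹ ^ (L + 1)) with h | h
    · exact le_add_right h
    · rw [Fin.sum_univ_castSucc]
      simp only [Fin.val_castSucc, Fin.val_last, if_pos h, mul_one]
      exact le_add_left (by rwa [add_comm])

/-- The probability of an outcome of a block, given the signal. -/
noncomputable def pr (a : (Fin k → Euc d) × (Fin k → ℝ) → ℝ≥0∞) (s : Euc d) : ℝ≥0∞ :=
  ∫⁻ X, a (X, lab X s) ∂gam d k

lemma meas_pr {a : (Fin k → Euc d) × (Fin k → ℝ) → ℝ≥0∞} (ha : Measurable a) :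
    Measurable (pr a) := by
  have h : Measurable fun w : Euc d × (Fin k → Euc d) => (w.2, lab w.2 w.1) :=
    Continuous.measurable (by fun_prop)
  exact (ha.comp h).lintegral_prod_right'

lemma sum_pr {O : Type} [Fintype O] {a : O → (Fin k → Euc d) × (Fin k → ℝ) → ℝ≥0∞}
    (ha : ∀ o, Measurable (a o)) (ha1 : ∀ w, ∑ o, a o w ≤ 1) (s : Euc d) :
    ∑ o, pr (a o) s ≤ 1 := by
  have h : Measurable fun X : Fin k → Euc d => (X, lab X s) :=
    Continuous.measurable (by fun_prop)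
  have h2 : ∀ o, Measurable fun X : Fin k → Euc d => a o (X, lab X s) := fun o => (ha o).comp h
  simp only [pr]
  rw [← lintegral_finsetSum _ fun o _ => h2 o]
  exact (lintegral_mono fun X => ha1 _).trans (by simp)

/-- The loss factor of one block. -/
noncomputable def loss (d k L L' : ℕ) : ℝ≥0∞ :=
  1 + L * (2 * (2 ^ L' * (3 ^ d * 14 ^ d * 2 ^ k * 2 * 14 ^ k) + 3 ^ d))

lemma cube_step {β J L L' : ℕ} (hd : β + 2 * k + 1 = d) (hk : 0 < k) (hdk : d ≤ 8 * k)
    (hL : L ≤ L' * k) {O : Type} [Fintype O] (hO : Fintype.card O ≤ 2 ^ L)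
    {a : O → (Fin k → Euc d) × (Fin k → ℝ) → ℝ≥0∞} (ha : ∀ o, Measurable (a o))
    (ha1 : ∀ w, ∑ o, a o w ≤ 1) (p : ℕ × (Fin d → ℤ)) :
    ∃ v : O → ℝ≥0∞, (∀ o, Dom (2 * k) (2 ^ (J * β)) (fun s => cu p s * pr (a o) s) (v o)) ∧
      ∑ o, v o ≤ loss d k L L' * 2⁻¹ ^ (p.1 * (2 * k)) := by
  obtain ⟨j, z⟩ := p
  have hd0 : 0 < d := by omega
  obtain ⟨x, rfl⟩ : ∃ x : Euc d, key j x = z := by
    refine ⟨WithLp.toLp 2 fun i => z i / (2 ^ j * √d), funext fun i => ?_⟩
    have : (0 : ℝ) < d := by exact_mod_cast hd0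
    simp only [key]
    rw [mul_div_cancel₀ _ (by positivity), Int.floor_intCast]
  have ha2 : ∀ o w, a o w ≤ 1 := fun o w =>
    (Finset.single_le_sum (fun _ _ => bot_le) (Finset.mem_univ o)).trans (ha1 w)
  have hg1 : ∀ o s, pr (a o) s ≤ 1 := fun o s =>
    (Finset.single_le_sum (fun _ _ => bot_le) (Finset.mem_univ o)).trans (sum_pr ha ha1 s)
  obtain ⟨D, hD⟩ : ∃ D : ℝ≥0∞, D = 2 ^ L' *
    (3 ^ d * 14 ^ d * 2 ^ k * 2 ^ (j * k) * 2⁻¹ ^ (j * (2 * k)) * 2) := ⟨_, rfl⟩
  obtain ⟨Λ, hΛ⟩ : ∃ Λ : O → ℝ≥0∞, Λ = fun o =>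
    ∫⁻ w in Om k x (2⁻¹ ^ j), a o w ∂(gam d k).prod volume := ⟨_, rfl⟩
  refine ⟨fun o => 2⁻¹ ^ L * 2⁻¹ ^ (j * (2 * k)) +
    L * (2 * (D * Λ o + (2 ^ L')⁻¹ ^ k * (3 ^ d * 2⁻¹ ^ (j * (2 * k))))), fun o => ?_, ?_⟩
  · have h1 : ∀ i : ℕ, Dom (2 * k) (2 ^ (J * β)) (fun s => 2⁻¹ ^ i * (cu (j, key j x) s *
        if 2⁻¹ ^ (i + 1) < pr (a o) s then 1 else 0))
        (2 * (D * Λ o + (2 ^ L')⁻¹ ^ k * (3 ^ d * 2⁻¹ ^ (j * (2 * k))))) := by
      intro i
      have hS : MeasurableSet (key j ⁻¹' {key j x} ∩ {s | 2⁻¹ ^ (i + 1) < pr (a o) s}) :=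
        (meas_cube _ _).inter (measurableSet_lt measurable_const (meas_pr (ha o)))
      obtain ⟨ν, h1, h2, h3⟩ := frostman (γ := 2 * k) (K := 2 ^ (J * β)) (by finiteness) hS
        (J - j) j
      have hae : ∀ᵐ s ∂ν, s ∈ key j ⁻¹' {key j x} ∩ {s | 2⁻¹ ^ (i + 1) < pr (a o) s} :=
        (Measure.absolutelyContinuous_of_le_smul h1).ae_le (ae_restrict_mem hS)
      have hν : ∀ n z, ν (key (j + n) ⁻¹' {z}) ≤ 3 ^ d * 2⁻¹ ^ ((j + n) * (2 * k)) := by
        intro n z
        rcases lt_or_ge n (J - j) with h | h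
        · exact (h2 n h z).trans (le_mul_of_one_le_left' (one_le_pow₀ (by norm_num)))
        · refine (h1 _).trans ?_
          rw [Measure.smul_apply, smul_eq_mul]
          refine (mul_le_mul_right ((Measure.restrict_le_self _).trans (sig_cube hd0 _ z)) _).trans
            ?_
          obtain ⟨e, he⟩ := Nat.exists_eq_add_of_le (show J ≤ j + n by omega)
          rw [show d - 1 = β + 2 * k by omega, he]
          calc _ = (3 : ℝ≥0∞) ^ d * 2⁻¹ ^ ((J + e) * (2 * k)) * (2 ^ (J * β) * 2⁻¹ ^ (J * β)) *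
                2⁻¹ ^ (e * β) := by ring
            _ ≤ _ := by
                rw [two_cancel, mul_one]
                exact mul_le_of_le_one_right' (half_le _)
      have h4 : ν univ ≤ 3 ^ d * 2⁻¹ ^ (j * (2 * k)) :=
        le_trans (measure_mono_ae (hae.mono fun s hs _ => hs.1)) (hν 0 _)
      have : IsFiniteMeasure ν := ⟨h4.trans_lt (ENNReal.mul_lt_top (by finiteness)
        ((half_le _).trans_lt ENNReal.one_lt_top))⟩
      have h5 := block_bound hd0 (by omega) (c := 2 ^ L') (by simp) (by simp) (by simp) (by simp)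
        hν x (hae.mono fun s hs => hs.1) (ha o) (ha2 o)
      refine ((h3 univ).smul (2⁻¹ ^ i)).mono (fun s _ => mul_le_mul_right ?_ _) ?_
      · split_ifs with h
        · rw [mul_one, preimage_univ, univ_inter, cu]
          by_cases h6 : s ∈ key j ⁻¹' {key j x}
          · rw [indicator_of_mem h6, indicator_of_mem (by exact ⟨h6, h⟩)]
          · rw [indicator_of_notMem h6]; exact bot_le
        · simp
      · calc _ = 2 * (2⁻¹ ^ (i + 1) * ν univ) := by
              rw [pow_succ', ← mul_assoc, ← mul_assoc,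
                ENNReal.mul_inv_cancel two_ne_zero ENNReal.ofNat_ne_top, one_mul, preimage_univ]
          _ ≤ _ := by
              rw [← lintegral_const, hD, hΛ]
              exact mul_le_mul_right ((lintegral_mono_ae (hae.mono fun s hs => hs.2.le)).trans
                (h5.trans (add_le_add_right (mul_le_mul_right h4 _) _))) _
    refine (((dom_cu (j, key j x)).smul (2⁻¹ ^ L)).add (Dom.sum fun i : Fin L => h1 i)).mono
      (fun s _ => ?_) (le_of_eq (by simp))
    refine (mul_le_mul_right (layer (hg1 o s) L) _).trans (le_of_eq ?_)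
    rw [mul_add, Finset.mul_sum, mul_comm]
    congr 1
    exact Finset.sum_congr rfl fun i _ => mul_left_comm _ _ _
  · have hO' : (Fintype.card O : ℝ≥0∞) ≤ 2 ^ L := by exact_mod_cast hO
    have h1 : ∑ o, Λ o ≤ 14 ^ k * 2⁻¹ ^ (j * k) := by
      rw [hΛ, ← lintegral_finsetSum _ fun o _ => ha o]
      refine (lintegral_mono ha1).trans ?_
      rw [lintegral_one, Measure.restrict_apply_univ]
      refine (vol_Om hk (by omega) hdk x (by positivity)).trans (le_of_eq ?_)
      rw [mul_pow, ENNReal.ofReal_mul (by positivity), ← pow_mul, ofReal_half,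
        ENNReal.ofReal_pow (by norm_num), ENNReal.ofReal_ofNat]
    have h2 : (Fintype.card O : ℝ≥0∞) * (2 ^ L')⁻¹ ^ k ≤ 1 := by
      rw [ENNReal.inv_pow, ← pow_mul, ← two_cancel (L' * k)]
      exact mul_le_mul_left (hO'.trans (pow_le_pow_right₀ one_le_two hL)) _
    have h3 : (Fintype.card O : ℝ≥0∞) * 2⁻¹ ^ L ≤ 1 := by
      rw [← two_cancel L]
      exact mul_le_mul_left hO' _
    rw [Finset.sum_add_distrib, Finset.sum_const, ← Finset.mul_sum, ← Finset.mul_sum,
      Finset.sum_add_distrib, Finset.sum_const, ← Finset.mul_sum, Finset.card_univ, nsmul_eq_mul,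
      nsmul_eq_mul, ← mul_assoc, ← mul_assoc _ ((2 ^ L')⁻¹ ^ k)]
    calc _ ≤ 1 * 2⁻¹ ^ (j * (2 * k)) + L * (2 * (D * (14 ^ k * 2⁻¹ ^ (j * k)) +
          1 * (3 ^ d * 2⁻¹ ^ (j * (2 * k))))) := by gcongr
      _ = 1 * 2⁻¹ ^ (j * (2 * k)) + L * (2 * (2 ^ L' * (3 ^ d * 14 ^ d * 2 ^ k * 2 * 14 ^ k) *
          2⁻¹ ^ (j * (2 * k)) * (2 ^ (j * k) * 2⁻¹ ^ (j * k)) +
          1 * (3 ^ d * 2⁻¹ ^ (j * (2 * k))))) := by rw [hD]; ring
      _ = _ := by rw [two_cancel, loss]; ring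

lemma dom_step {β J L L' : ℕ} (hd : β + 2 * k + 1 = d) (hk : 0 < k) (hdk : d ≤ 8 * k)
    (hL : L ≤ L' * k) {O : Type} [Fintype O] (hO : Fintype.card O ≤ 2 ^ L)
    {a : O → (Fin k → Euc d) × (Fin k → ℝ) → ℝ≥0∞} (ha : ∀ o, Measurable (a o))
    (ha1 : ∀ w, ∑ o, a o w ≤ 1) {f : Euc d → ℝ≥0∞} {v : ℝ≥0∞}
    (hf : Dom (2 * k) (2 ^ (J * β)) f v) :
    ∃ v' : O → ℝ≥0∞, (∀ o, Dom (2 * k) (2 ^ (J * β)) (fun s => f s * pr (a o) s) (v' o)) ∧
      ∑ o, v' o ≤ loss d k L L' * v := by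
  obtain ⟨c, h, h1, h2, h3⟩ := hf
  choose w hw1 hw2 using cube_step (J := J) hd hk hdk hL hO ha ha1
  have hm : ∀ o, Measurable fun s => h s * pr (a o) s := fun o => h1.mul (meas_pr (ha o))
  refine ⟨_, fun o => ((Dom.tsum fun p => (hw1 p o).smul (c p)).add (dom_dens (hm o))).mono
    (fun s hs => ?_) le_rfl, ?_⟩
  · refine (mul_le_mul_left (h2 s hs) _).trans (le_of_eq ?_)
    simp only [← mul_assoc]
    rw [add_mul, ENNReal.tsum_mul_right]
  · refine le_trans ?_ (mul_le_mul_right h3 _)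
    rw [Finset.sum_add_distrib, mul_add, ← Finset.mul_sum, ← lintegral_finsetSum _ fun o _ => hm o,
      ← ENNReal.tsum_mul_left, ← Summable.tsum_finsetSum fun _ _ => ENNReal.summable]
    refine add_le_add (ENNReal.tsum_le_tsum fun p => ?_)
      (le_trans ?_ (le_mul_of_one_le_left' le_self_add))
    · rw [← Finset.mul_sum, mul_left_comm]
      exact mul_le_mul_right (hw2 p) _
    · refine mul_le_mul_right (lintegral_mono fun s => ?_) _
      rw [← Finset.mul_sum]
      exact mul_le_of_le_one_right' (sum_pr ha ha1 s)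

end Vale.Agent.P309
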