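import Vale.Agent.P309.Gauss

namespace Vale.Agent.P309

open MeasureTheory ProbabilityTheory Metric Set Filter
open scoped ENNReal RealInnerProductSpace Topology

variable {d k : ℕ}

lemma two_cancel (a : ℕ) : (2 : ℝ≥0∞) ^ a * 2⁻¹ ^ a = 1 := by
  rw [← mul_pow, ENNReal.mul_inv_cancel two_ne_zero ENNReal.ofNat_ne_top, one_pow]

lemma half_le (a : ℕ) : (2⁻¹ : ℝ≥0∞) ^ a ≤ 1 := pow_le_one₀ bot_le (by simp)

lemma ofReal_half (a : ℕ) : ENNReal.ofReal (2⁻¹ ^ a) = 2⁻¹ ^ a := by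
  rw [ENNReal.ofReal_pow (by norm_num), ENNReal.ofReal_inv_of_pos two_pos]
  simp

lemma inv_pow_le_tsum (k j : ℕ) {x : ℝ} (hx0 : 0 ≤ x) (hx : x ≤ 2⁻¹ ^ j) :
    (ENNReal.ofReal x)⁻¹ ^ k ≤
      ∑' n : ℕ, (2 : ℝ≥0∞) ^ ((j + n + 1) * k) * if x ≤ 2⁻¹ ^ (j + n) then 1 else 0 := by
  rcases hx0.eq_or_lt with rfl | hx0
  · refine le_top.trans ((ENNReal.tsum_const_eq_top_of_ne_zero (α := ℕ) one_ne_zero).ge.trans
      (ENNReal.tsum_le_tsum fun n => ?_))
    rw [if_pos (by positivity), mul_one]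
    exact one_le_pow₀ one_le_two
  have h1 : ∃ n : ℕ, (2⁻¹ : ℝ) ^ (j + n + 1) < x := by
    obtain ⟨n, hn⟩ := exists_pow_lt_of_lt_one hx0 (by norm_num : (2⁻¹ : ℝ) < 1)
    exact ⟨n, (pow_le_pow_of_le_one (by norm_num) (by norm_num) (by omega)).trans_lt hn⟩
  refine le_trans ?_ (ENNReal.le_tsum (Nat.find h1))
  have h2 : x ≤ 2⁻¹ ^ (j + Nat.find h1) := by
    rcases h : Nat.find h1 with _ | n
    · exact hx
    · exact not_lt.1 (Nat.find_min h1 (m := n) (by omega))
  rw [if_pos h2, mul_one, pow_mul]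
  gcongr
  rw [ENNReal.inv_le_iff_inv_le, ENNReal.inv_pow, ← ofReal_half]
  exact ENNReal.ofReal_le_ofReal (Nat.find_spec h1).le

/-- The energy bound for Frostman measures on a cube. -/
lemma energy (hd : 0 < d) {ν : Measure (Euc d)} {j γ i : ℕ} {B : ℝ≥0∞}
    (hν : ∀ n z, ν (key (j + n) ⁻¹' {z}) ≤ B * 2⁻¹ ^ ((j + n) * γ)) (x : Euc d)
    (hx : ∀ᵐ s ∂ν, ‖s - x‖ ≤ 2⁻¹ ^ j) (b : OrthonormalBasis (Fin d) ℝ (Euc d)) (hi : i ≤ d)
    (hγ : k + i + 1 ≤ γ) :
    ∫⁻ s, (ENNReal.ofReal ‖tl b i (s - x)‖)⁻¹ ^ k ∂ν ≤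
      B * 14 ^ d * 2 ^ k * 2 ^ (j * k) * 2⁻¹ ^ (j * γ) * 2 := by
  have hc := (tl b i).continuous_of_finiteDimensional
  have hm : ∀ n, MeasurableSet {y : Euc d | ‖y - x‖ ≤ 2⁻¹ ^ j ∧
      ‖tl b i (y - x)‖ ≤ 2⁻¹ ^ (j + n)} := fun n =>
    ((isClosed_le (f := fun y => ‖y - x‖) (by fun_prop) continuous_const).inter
      (isClosed_le (f := fun y => ‖tl b i (y - x)‖) (by fun_prop) continuous_const)).measurableSet
  calc _ ≤ ∫⁻ s, ∑' n : ℕ, (2 : ℝ≥0∞) ^ ((j + n + 1) * k) * {y : Euc d | ‖y - x‖ ≤ 2⁻¹ ^ j ∧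
        ‖tl b i (y - x)‖ ≤ 2⁻¹ ^ (j + n)}.indicator 1 s ∂ν := by
        refine lintegral_mono_ae (hx.mono fun s hs => ?_)
        refine (inv_pow_le_tsum k j (norm_nonneg _) ((norm_tl_le b i _).trans hs)).trans
          (le_of_eq (tsum_congr fun n => ?_))
        simp only [indicator, mem_ofPred_eq, hs, true_and, Pi.one_apply]
    _ = ∑' n : ℕ, (2 : ℝ≥0∞) ^ ((j + n + 1) * k) * ν {y : Euc d | ‖y - x‖ ≤ 2⁻¹ ^ j ∧
        ‖tl b i (y - x)‖ ≤ 2⁻¹ ^ (j + n)} := by
        rw [lintegral_tsum fun n =>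
          ((measurable_one.indicator (hm n)).const_mul _).aemeasurable]
        exact tsum_congr fun n => by
          rw [lintegral_const_mul _ (measurable_one.indicator (hm n)),
            lintegral_indicator_one (hm n)]
    _ ≤ ∑' n : ℕ, B * 14 ^ d * 2 ^ k * 2 ^ (j * k) * 2⁻¹ ^ (j * γ) * 2⁻¹ ^ n := by
        refine ENNReal.tsum_le_tsum fun n => ?_
        refine (mul_le_mul_right (meas_tube hd (hν n) b hi x
          (pow_le_pow_of_le_one (by norm_num) (by norm_num) (by omega))) _).trans ?_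
        have h1 : (2⁻¹ : ℝ) ^ j / 2⁻¹ ^ (j + n) = 2 ^ n := by
          rw [pow_add, inv_pow, inv_pow]; field_simp
        rw [h1, ENNReal.ofReal_mul (by positivity), ENNReal.ofReal_pow (by positivity),
          ENNReal.ofReal_pow (by positivity), ENNReal.ofReal_pow (by positivity),
          ENNReal.ofReal_ofNat, ENNReal.ofReal_ofNat]
        obtain ⟨e, rfl⟩ := Nat.exists_eq_add_of_le hγ
        calc _ = B * 14 ^ d * 2 ^ k * 2 ^ (j * k) * 2⁻¹ ^ (j * (k + i + 1 + e)) * 2⁻¹ ^ n *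
              (2 ^ (n * k) * 2⁻¹ ^ (n * k)) * (2 ^ (n * i) * 2⁻¹ ^ (n * i)) * 2⁻¹ ^ (n * e) := by
              ring
          _ ≤ _ := by
              rw [two_cancel, two_cancel, mul_one, mul_one]
              exact mul_le_of_le_one_right' (half_le _)
    _ = _ := by rw [ENNReal.tsum_mul_left, ENNReal.tsum_geometric_two]

/-- The joint law of rows and labels for signals distributed as `ν`. -/
noncomputable def joint (k : ℕ) (ν : Measure (Euc d)) :
    Measure ((Fin k → Euc d) × (Fin k → ℝ)) :=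
  (ν.prod (gam d k)).map fun w => (w.2, lab w.2 w.1)

instance (ν : Measure (Euc d)) [IsFiniteMeasure ν] : IsFiniteMeasure (joint k ν) := by
  unfold joint; infer_instance

lemma lintegral_joint (ν : Measure (Euc d)) [IsFiniteMeasure ν]
    {a : (Fin k → Euc d) × (Fin k → ℝ) → ℝ≥0∞} (ha : Measurable a) :
    ∫⁻ w, a w ∂joint k ν = ∫⁻ s, ∫⁻ X, a (X, lab X s) ∂gam d k ∂ν := by
  have h : Measurable fun w : Euc d × (Fin k → Euc d) => (w.2, lab w.2 w.1) :=
    Continuous.measurable (by fun_prop)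
  rw [joint, lintegral_map ha h]
  exact lintegral_prod _ (ha.comp h).aemeasurable

open Classical in
/-- The indicator that the labels are near those produced by `s`. -/
noncomputable def nI (τ : ℝ) (w : (Fin k → Euc d) × (Fin k → ℝ)) (s : Euc d) : ℝ≥0∞ :=
  if dist w.2 (lab w.1 s) ≤ τ then 1 else 0

lemma meas_nI (τ : ℝ) {α : Type} [MeasurableSpace α] {f : α → (Fin k → Euc d) × (Fin k → ℝ)}
    {g : α → Euc d} (hf : Measurable f) (hg : Measurable g) :
    Measurable fun a => nI τ (f a) (g a) := by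
  have h : MeasurableSet {v : ((Fin k → Euc d) × (Fin k → ℝ)) × Euc d |
      dist v.1.2 (lab v.1.1 v.2) ≤ τ} := (isClosed_le (by fun_prop) continuous_const).measurableSet
  unfold nI
  exact Measurable.ite ((hf.prodMk hg) h) measurable_const measurable_const

lemma meas_p (τ : ℝ) (ν : Measure (Euc d)) [IsFiniteMeasure ν] :
    Measurable fun w : (Fin k → Euc d) × (Fin k → ℝ) => ∫⁻ s, nI τ w s ∂ν :=
  (meas_nI τ measurable_fst measurable_snd).lintegral_prod_right'

lemma lintegral_nI {τ : ℝ} (hτ : 0 < τ) (X : Fin k → Euc d) (s : Euc d) :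
    ∫⁻ Y, nI τ (X, Y) s = ENNReal.ofReal (2 * τ) ^ k := by
  have h4 := Real.volume_pi_closedBall (lab X s) hτ.le
  rw [Fintype.card_fin, ENNReal.ofReal_pow (by positivity)] at h4
  rw [← h4, ← lintegral_indicator_one measurableSet_closedBall]
  refine lintegral_congr fun Y => ?_
  by_cases h : dist Y (lab X s) ≤ τ
  · rw [nI, if_pos h, indicator_of_mem (mem_closedBall.2 h), Pi.one_apply]
  · rw [nI, if_neg h, indicator_of_notMem (fun h' => h (mem_closedBall.1 h'))]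

/-- The mollified density has a small high moment. -/
lemma moll_moment {ν : Measure (Euc d)} [IsFiniteMeasure ν] {q : ℕ} (hq : q ≤ d) {D : ℝ≥0∞}
    (hD : ∀ᵐ s0 ∂ν, ∀ (b : OrthonormalBasis (Fin d) ℝ (Euc d)) (i : ℕ), i < q →
      ∫⁻ s, (ENNReal.ofReal ‖tl b i (s - s0)‖)⁻¹ ^ k ∂ν ≤ D) {τ : ℝ} (hτ : 0 < τ) :
    ∫⁻ w, (∫⁻ s, nI τ w s ∂ν) ^ (q + 1) ∂(gam d k).prod volume ≤
      ENNReal.ofReal (2 * τ) ^ k * (ENNReal.ofReal (2 * τ) ^ k * D) ^ q * ν univ := by
  have hp := meas_p (k := k) τ ν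
  have h1 : ∀ w : (Fin k → Euc d) × (Fin k → ℝ), (∫⁻ s, nI τ w s ∂ν) ^ (q + 1) =
      ∫⁻ s0, nI τ w s0 * (∫⁻ s, nI τ w s ∂ν) ^ q ∂ν := by
    intro w
    have h2 : Measurable fun s => nI τ w s := meas_nI τ measurable_const measurable_id
    rw [pow_succ', lintegral_mul_const _ h2]
  simp only [h1]
  rw [lintegral_lintegral_swap ((meas_nI τ measurable_fst measurable_snd).mul
    ((hp.comp measurable_fst).pow_const q)).aemeasurable, ← lintegral_const]
  refine lintegral_mono_ae (hD.mono fun s0 hs0 => ?_)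
  have hI2 : Measurable fun w : (Fin k → Euc d) × (Fin k → ℝ) =>
      nI τ w s0 * (∫⁻ s, nI τ w s ∂ν) ^ q :=
    (meas_nI τ measurable_id measurable_const).mul (hp.pow_const q)
  rw [lintegral_prod _ hI2.aemeasurable]
  have h3 := moment s0 (η := 2 * τ) (by positivity) hq hs0 q 0 0 (fun _ => 1) (by omega)
    measurable_const fun _ _ _ _ => rfl
  simp only [one_mul, lintegral_const, measure_univ, mul_one] at h3
  refine le_trans ?_ (mul_le_mul_right h3 _)
  rw [← lintegral_const_mul' _ _ (ENNReal.pow_ne_top ENNReal.ofReal_ne_top)]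
  refine lintegral_mono fun X => ?_
  have h4 : Measurable fun Y => nI τ (X, Y) s0 :=
    meas_nI τ measurable_prodMk_left measurable_const
  rw [← lintegral_nI hτ X s0, ← lintegral_mul_const _ h4]
  refine lintegral_mono fun Y => ?_
  by_cases h : dist Y (lab X s0) ≤ τ
  · refine mul_le_mul_right (pow_le_pow_left' ?_ q) _
    rw [← lintegral_indicator_one (meas_slabs2 measurable_const (measurable_id'.sub_const s0) _)]
    refine lintegral_mono fun s => ?_
    by_cases hs : dist Y (lab X s) ≤ τ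
    · rw [nI, if_pos hs, indicator_of_mem, Pi.one_apply]
      intro t
      have h4 := (dist_triangle_left (lab X s) (lab X s0) Y).trans (add_le_add hs h)
      have h5 := (dist_le_pi_dist _ _ t).trans h4
      rw [Real.dist_eq] at h5
      rw [inner_sub_right, two_mul]
      exact h5
    · rw [nI, if_neg hs]; exact bot_le
  · simp only [nI, if_neg h, zero_mul, le_refl]

lemma dual_set {ν : Measure (Euc d)} [IsFiniteMeasure ν] {q : ℕ} (hq : q ≤ d) {D c : ℝ≥0∞}
    (hD : ∀ᵐ s0 ∂ν, ∀ (b : OrthonormalBasis (Fin d) ℝ (Euc d)) (i : ℕ), i < q →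
      ∫⁻ s, (ENNReal.ofReal ‖tl b i (s - s0)‖)⁻¹ ^ k ∂ν ≤ D) (hD0 : D ≠ 0) (hD1 : D ≠ ⊤)
    (hc0 : c ≠ 0) (hc1 : c ≠ ⊤) {A : Set ((Fin k → Euc d) × (Fin k → ℝ))}
    (hA : MeasurableSet A) :
    joint k ν A ≤ c * D * (gam d k).prod volume A + c⁻¹ ^ q * ν univ := by
  rw [hA.measure_eq_iSup_isCompact]
  refine iSup_le fun K => iSup_le fun hKA => iSup_le fun hK => ?_
  refine le_trans ?_ (add_le_add_left (mul_le_mul_right (measure_mono hKA) _) _)
  have hlim := ((ENNReal.Tendsto.const_mul (a := c * D)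
    (tendsto_measure_cthickening_of_isCompact (μ := (gam d k).prod volume) hK)
    (Or.inr (ENNReal.mul_ne_top hc1 hD1))).add_const (c⁻¹ ^ q * ν univ)).mono_left
    (nhdsWithin_le_nhds (s := Ioi 0))
  refine ge_of_tendsto hlim (eventually_nhdsWithin_of_forall fun τ hτ => ?_)
  have hτ : 0 < τ := hτ
  obtain ⟨e, he⟩ : ∃ e, e = ENNReal.ofReal (2 * τ) ^ k := ⟨_, rfl⟩
  have he0 : e ≠ 0 := he ▸ pow_ne_zero _ (ENNReal.ofReal_pos.2 (by positivity)).ne'
  have he1 : e ≠ ⊤ := he ▸ ENNReal.pow_ne_top ENNReal.ofReal_ne_top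
  have hp := meas_p (k := k) τ ν
  have hKτ : MeasurableSet (cthickening τ K) := isClosed_cthickening.measurableSet
  obtain ⟨χ, hχ⟩ : ∃ χ : (Fin k → Euc d) × (Fin k → ℝ) → ℝ≥0∞,
    χ = (cthickening τ K).indicator 1 := ⟨_, rfl⟩
  have hχm : Measurable χ := hχ ▸ measurable_one.indicator hKτ
  have h1 : e * joint k ν K ≤ ∫⁻ w, χ w * ∫⁻ s, nI τ w s ∂ν ∂(gam d k).prod volume := by
    have h2 : ∀ w : (Fin k → Euc d) × (Fin k → ℝ), χ w * ∫⁻ s, nI τ w s ∂ν =
        ∫⁻ s, χ w * nI τ w s ∂ν := fun w =>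
      (lintegral_const_mul _ (meas_nI τ measurable_const measurable_id)).symm
    simp only [h2]
    rw [lintegral_lintegral_swap ((hχm.comp measurable_fst).mul
      (meas_nI τ measurable_fst measurable_snd)).aemeasurable,
      ← lintegral_indicator_one hK.measurableSet,
      lintegral_joint ν (measurable_one.indicator hK.measurableSet),
      ← lintegral_const_mul' _ _ he1]
    refine lintegral_mono fun s => ?_
    have hI2 : Measurable fun w : (Fin k → Euc d) × (Fin k → ℝ) => χ w * nI τ w s :=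
      hχm.mul (meas_nI τ measurable_id measurable_const)
    rw [lintegral_prod _ hI2.aemeasurable, ← lintegral_const_mul' _ _ he1]
    refine lintegral_mono fun X => ?_
    by_cases h : (X, lab X s) ∈ K
    · rw [indicator_of_mem h, Pi.one_apply, mul_one, he, ← lintegral_nI hτ X s]
      refine lintegral_mono fun Y => ?_
      by_cases h5 : dist Y (lab X s) ≤ τ
      · rw [hχ, indicator_of_mem (mem_cthickening_of_dist_le _ _ _ _ h
          (by simpa [Prod.dist_eq, hτ.le] using h5)), Pi.one_apply, one_mul]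
      · simp only [nI, if_neg h5, zero_le]
    · rw [indicator_of_notMem h, mul_zero]; exact bot_le
  obtain ⟨u, hu⟩ : ∃ u, u = e * (c * D) := ⟨_, rfl⟩
  have hu0 : u ≠ 0 := hu ▸ mul_ne_zero he0 (mul_ne_zero hc0 hD0)
  have hu1 : u ≠ ⊤ := hu ▸ ENNReal.mul_ne_top he1 (ENNReal.mul_ne_top hc1 hD1)
  have h2 : ∀ (w : (Fin k → Euc d) × (Fin k → ℝ)) (p : ℝ≥0∞),
      χ w * p ≤ u * χ w + u⁻¹ ^ q * p ^ (q + 1) := by
    intro w p
    rcases le_total p u with h | h
    · exact le_add_right (by rw [mul_comm]; gcongr)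
    · refine le_add_left ((mul_le_of_le_one_left' (hχ ▸ indicator_le_self _ _ w)).trans ?_)
      calc p = (u⁻¹ * u) ^ q * p := by rw [ENNReal.inv_mul_cancel hu0 hu1, one_pow, one_mul]
        _ ≤ (u⁻¹ * p) ^ q * p := by gcongr
        _ = _ := by ring
  rw [← ENNReal.mul_le_mul_iff_right he0 he1]
  refine h1.trans ((lintegral_mono fun w => h2 w _).trans ?_)
  rw [lintegral_add_left (hχm.const_mul _), lintegral_const_mul _ hχm, hχ,
    lintegral_indicator_one hKτ, lintegral_const_mul _ (hp.pow_const _), mul_add, ← mul_assoc,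
    ← hu]
  refine add_le_add_right ((mul_le_mul_right (moll_moment hq hD hτ) _).trans (le_of_eq ?_)) _
  have h3 : u⁻¹ * (e * D) = c⁻¹ := by
    rw [hu, mul_left_comm e, ENNReal.mul_inv (Or.inl hc0) (Or.inl hc1), mul_assoc,
      ENNReal.inv_mul_cancel (mul_ne_zero he0 hD0) (ENNReal.mul_ne_top he1 hD1), mul_one]
  rw [← he, ← h3]
  ring

lemma dual_fun {α : Type} [MeasurableSpace α] {P μ : Measure α} {u W : ℝ≥0∞} (hu : u ≠ ⊤)
    (h : ∀ A, MeasurableSet A → P A ≤ u * μ A + W) {a : α → ℝ≥0∞} (ha : Measurable a)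
    (ha1 : ∀ w, a w ≤ 1) : ∫⁻ w, a w ∂P ≤ u * ∫⁻ w, a w ∂μ + W := by
  have h1 : ∀ ρ : Measure α, ∫⁻ w, a w ∂ρ = ∫⁻ t in Ioi 0, ρ {w | t < (a w).toReal} := by
    intro ρ
    rw [← lintegral_eq_lintegral_meas_lt ρ (ae_of_all _ fun w => ENNReal.toReal_nonneg)
      ha.ennreal_toReal.aemeasurable]
    exact lintegral_congr fun w =>
      (ENNReal.ofReal_toReal ((ha1 w).trans_lt ENNReal.one_lt_top).ne).symm
  rw [h1, h1, ← lintegral_const_mul' _ _ hu]
  have h2 : ∫⁻ t in Ioi (0 : ℝ), (Iio (1 : ℝ)).indicator (fun _ => W) t = W := by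
    rw [lintegral_indicator_const measurableSet_Iio, Measure.restrict_apply measurableSet_Iio,
      inter_comm, Ioi_inter_Iio]
    simp
  rw [← h2, ← lintegral_add_right _ (measurable_const.indicator measurableSet_Iio)]
  refine lintegral_mono fun t => ?_
  by_cases ht : t < 1
  · rw [indicator_of_mem (by exact ht)]
    exact h _ (measurableSet_lt measurable_const ha.ennreal_toReal)
  · have : {w | t < (a w).toReal} = ∅ := by
      ext w
      have := ENNReal.toReal_le_of_le_ofReal zero_le_one (b := 1) (a := a w) (by simpa using ha1 w)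
      simp only [mem_ofPred_eq, mem_empty_iff_false, iff_false, not_lt]
      linarith [not_lt.1 ht]
    rw [this, measure_empty]; exact bot_le

/-- The main analytic estimate for one block of samples. -/
lemma block_bound (hd : 0 < d) (hk : k ≤ d) {ν : Measure (Euc d)} [IsFiniteMeasure ν] {j : ℕ}
    {B c : ℝ≥0∞} (hB0 : B ≠ 0) (hB1 : B ≠ ⊤) (hc0 : c ≠ 0) (hc1 : c ≠ ⊤)
    (hν : ∀ n z, ν (key (j + n) ⁻¹' {z}) ≤ B * 2⁻¹ ^ ((j + n) * (2 * k))) (x : Euc d)
    (hx : ∀ᵐ s ∂ν, key j s = key j x) {a : (Fin k → Euc d) × (Fin k → ℝ) → ℝ≥0∞}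
    (ha : Measurable a) (ha1 : ∀ w, a w ≤ 1) :
    ∫⁻ s, ∫⁻ X, a (X, lab X s) ∂gam d k ∂ν ≤
      c * (B * 14 ^ d * 2 ^ k * 2 ^ (j * k) * 2⁻¹ ^ (j * (2 * k)) * 2) *
        ∫⁻ w in Om k x (2⁻¹ ^ j), a w ∂(gam d k).prod volume + c⁻¹ ^ k * ν univ := by
  have hD1 : B * 14 ^ d * 2 ^ k * 2 ^ (j * k) * 2⁻¹ ^ (j * (2 * k)) * 2 ≠ ⊤ := by
    have := (half_le (j * (2 * k))).trans_lt ENNReal.one_lt_top
    finiteness
  have hO := (closed_Om (k := k) x (2⁻¹ ^ j)).measurableSet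
  rw [← lintegral_joint ν ha]
  refine dual_fun (ENNReal.mul_ne_top hc1 hD1) (fun A hA => ?_) ha ha1
  have h1 : joint k ν (A \ Om k x (2⁻¹ ^ j)) = 0 := by
    rw [← lintegral_indicator_one (hA.diff hO),
      lintegral_joint ν (measurable_one.indicator (hA.diff hO))]
    refine (lintegral_congr_ae (hx.mono fun s hs => ?_)).trans lintegral_zero
    refine (lintegral_congr fun X => indicator_of_notMem (fun h => h.2 ⟨s, ?_, rfl⟩) _).trans
      lintegral_zero
    rw [mem_closedBall, dist_eq_norm]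
    exact key_dist hs
  rw [← measure_inter_add_sdiff A hO, h1, add_zero, Measure.restrict_apply hA]
  refine dual_set hk (hx.mono fun s0 hs0 b i hi => energy hd hν s0
    (hx.mono fun s hs => key_dist (hs.trans hs0.symm)) b (by omega) (by omega)) ?_ hD1 hc0 hc1
    (hA.inter hO)
  simp [hB0]

end Vale.Agent.P309
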