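import Vale.Agent.P309.Geo

namespace Vale.Agent.P309

open MeasureTheory ProbabilityTheory Metric Set
open scoped ENNReal RealInnerProductSpace

lemma gauss_interval (c : ℝ) {a η : ℝ} (ha : 0 < a) :
    gaussianReal 0 1 {θ | |c + θ * a| ≤ η} ≤ ENNReal.ofReal (η / a) := by
  have h1 : {θ | |c + θ * a| ≤ η} = Icc ((-η - c) / a) ((η - c) / a) := by
    ext θ
    simp only [mem_ofPred_eq, abs_le, mem_Icc, div_le_iff₀ ha, le_div_iff₀ ha]
    constructor <;> rintro ⟨h1, h2⟩ <;> constructor <;> linarith
  rw [h1, gaussianReal_apply _ one_ne_zero]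
  have h2 : ∀ x, gaussianPDF 0 1 x ≤ ENNReal.ofReal (1 / 2) := by
    intro x
    apply ENNReal.ofReal_le_ofReal
    rw [gaussianPDFReal]
    refine (mul_le_of_le_one_right (by positivity) (Real.exp_le_one_iff.2 ?_)).trans ?_
    · apply div_nonpos_of_nonpos_of_nonneg (neg_nonpos.2 (sq_nonneg _)) (by positivity)
    · rw [one_div]
      apply inv_anti₀ two_pos
      rw [Real.le_sqrt' two_pos]
      simp only [NNReal.coe_one]
      nlinarith [Real.pi_gt_three]
  refine (lintegral_mono h2).trans ?_
  rw [lintegral_const, Measure.restrict_apply_univ, Real.volume_Icc,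
    ← ENNReal.ofReal_mul (by norm_num)]
  apply le_of_eq
  congr 1
  field_simp
  ring

variable {d k : ℕ}

/-- The slab of rows nearly orthogonal to `y`. -/
def slab (y : Euc d) (η : ℝ) : Set (Euc d) := {x | |⟪x, y⟫| ≤ η}

lemma meas_slab (y : Euc d) (η : ℝ) : MeasurableSet (slab y η) :=
  measurableSet_le (by fun_prop) measurable_const

lemma row_le {h : Euc d → ℝ≥0∞} (hh : Measurable h) {e y : Euc d} (he : e ≠ 0)
    (hey : ⟪e, y⟫ = ‖e‖ ^ 2) (hinv : ∀ x (θ : ℝ), h (x + θ • e) = h x) (η : ℝ) :
    ∫⁻ x, h x * (slab y η).indicator 1 x ∂stdGaussian (Euc d) ≤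
      ENNReal.ofReal (η / ‖e‖) * ∫⁻ x, h x ∂stdGaussian (Euc d) := by
  classical
  have hn : 0 < ‖e‖ := norm_pos_iff.2 he
  have hd : Nonempty (Fin d) := by
    by_contra h
    rw [not_nonempty_iff] at h
    exact he (Subsingleton.elim _ _)
  obtain ⟨l⟩ := hd
  obtain ⟨b, hb⟩ := Orthonormal.exists_orthonormalBasis_extension_of_card_eq (𝕜 := ℝ)
    (E := Euc d) (ι := Fin d) (by simp) (v := fun _ => ‖e‖⁻¹ • e) (s := {l}) (by
      constructor
      · intro i
        simp [norm_smul, hn.ne']
      · intro i j hij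
        exact (hij (Subsingleton.elim _ _)).elim)
  have hbl : b l = ‖e‖⁻¹ • e := hb l rfl
  have hΦ : Measurable fun x : Fin d → ℝ => ∑ i, x i • b i := by fun_prop
  have hm : Measurable fun x => h x * (slab y η).indicator 1 x :=
    hh.mul (measurable_one.indicator (meas_slab y η))
  rw [stdGaussian_eq_map_pi_orthonormalBasis b, lintegral_map hm hΦ, lintegral_map hh hΦ,
    ← lintegral_const_mul' _ _ ENNReal.ofReal_ne_top]
  refine lintegral_le_of_lmarginal_le {l} (hm.comp hΦ) ((hh.comp hΦ).const_mul _) ?_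
  intro x
  simp only [lmarginal_singleton]
  have h1 : ∀ θ : ℝ, ∑ i, Function.update x l θ i • b i =
      ∑ i ∈ Finset.univ.erase l, x i • b i + (θ * ‖e‖⁻¹) • e := by
    intro θ
    rw [← Finset.sum_erase_add _ _ (Finset.mem_univ l), Function.update_self, hbl, smul_smul]
    congr 1
    exact Finset.sum_congr rfl fun i hi => by
      rw [Function.update_of_ne (Finset.ne_of_mem_erase hi)]
  simp only [h1, hinv]
  generalize ∑ i ∈ Finset.univ.erase l, x i • b i = u
  have h2 : ∀ θ : ℝ, (slab y η).indicator (1 : Euc d → ℝ≥0∞) (u + (θ * ‖e‖⁻¹) • e) =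
      {θ : ℝ | |⟪u, y⟫ + θ * ‖e‖| ≤ η}.indicator 1 θ := by
    intro θ
    have : ⟪u + (θ * ‖e‖⁻¹) • e, y⟫ = ⟪u, y⟫ + θ * ‖e‖ := by
      rw [inner_add_left, real_inner_smul_left, hey]; field_simp
    simp only [indicator, slab, mem_ofPred_eq, this, Pi.one_apply]
  have h3 : MeasurableSet {θ : ℝ | |⟪u, y⟫ + θ * ‖e‖| ≤ η} :=
    measurableSet_le (by fun_prop) measurable_const
  simp only [h2]
  rw [lintegral_const, measure_univ, mul_one,
    lintegral_const_mul _ (measurable_one.indicator h3), lintegral_indicator_one h3, mul_comm]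
  gcongr
  exact gauss_interval _ hn

/-- The law of `k` independent rows. -/
noncomputable def gam (d k : ℕ) : Measure (Fin k → Euc d) :=
  Measure.pi fun _ => stdGaussian (Euc d)

instance : IsProbabilityMeasure (gam d k) := by unfold gam; infer_instance

/-- The labels. -/
noncomputable def lab (X : Fin k → Euc d) (s : Euc d) : Fin k → ℝ := fun t => ⟪X t, s⟫

@[fun_prop]
lemma continuous_lab {α : Type} [TopologicalSpace α] {f : α → Fin k → Euc d} {g : α → Euc d}
    (hf : Continuous f) (hg : Continuous g) : Continuous fun a => lab (f a) (g a) := by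
  unfold lab; fun_prop

/-- All rows are in the slab. -/
def slabs (k : ℕ) (y : Euc d) (η : ℝ) : Set (Fin k → Euc d) := {X | ∀ t, |⟪X t, y⟫| ≤ η}

lemma rows_le {H : (Fin k → Euc d) → ℝ≥0∞} (hH : Measurable H) {e y : Euc d}
    (hey : ⟪e, y⟫ = ‖e‖ ^ 2)
    (hinv : ∀ X t (θ : ℝ), H (Function.update X t (X t + θ • e)) = H X) {η : ℝ} (hη : 0 < η) :
    ∫⁻ X, H X * (slabs k y η).indicator 1 X ∂gam d k ≤
      (ENNReal.ofReal η * (ENNReal.ofReal ‖e‖)⁻¹) ^ k * ∫⁻ X, H X ∂gam d k := by
  classical
  rcases eq_or_ne e 0 with rfl | he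
  · rw [norm_zero, ENNReal.ofReal_zero, ENNReal.inv_zero,
      ENNReal.mul_top (ENNReal.ofReal_pos.2 hη).ne']
    refine le_trans (lintegral_mono fun X => ?_) (le_mul_of_one_le_left' (one_le_pow₀ le_top))
    exact mul_le_of_le_one_right' (indicator_le_self _ _ X)
  rw [← ENNReal.ofReal_inv_of_pos (norm_pos_iff.2 he), ← ENNReal.ofReal_mul hη.le,
    ← div_eq_mul_inv]
  have hm : ∀ s : Finset (Fin k), Measurable fun X : Fin k → Euc d =>
      H X * ∏ t ∈ s, (slab y η).indicator (1 : Euc d → ℝ≥0∞) (X t) := fun s =>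
    hH.mul (Finset.measurable_prod _ fun t _ =>
      (measurable_one.indicator (meas_slab y η)).comp (measurable_pi_apply t))
  have key : ∀ s : Finset (Fin k), ∫⁻ X, H X * ∏ t ∈ s, (slab y η).indicator 1 (X t) ∂gam d k ≤
      ENNReal.ofReal (η / ‖e‖) ^ s.card * ∫⁻ X, H X ∂gam d k := by
    intro s
    induction s using Finset.induction_on with
    | empty => simp
    | insert a s ha ih =>
      rw [Finset.card_insert_of_notMem ha, pow_succ', mul_assoc]
      refine le_trans ?_ (mul_le_mul_right ih _)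
      rw [← lintegral_const_mul' _ _ ENNReal.ofReal_ne_top]
      refine lintegral_le_of_lmarginal_le {a} (hm _) ((hm _).const_mul _) ?_
      intro X
      simp only [lmarginal_singleton]
      rw [lintegral_const_mul' _ _ ENNReal.ofReal_ne_top]
      refine le_trans (le_of_eq ?_) (row_le ((hm s).comp (measurable_update X)) he hey ?_ η)
      · congr 1
        funext x
        simp only [Function.comp, Finset.prod_insert ha, Function.update_self]
        ring
      · intro x θ
        have h1 := hinv (Function.update X a x) a θ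
        rw [Function.update_idem, Function.update_self] at h1
        simp only [Function.comp, h1]
        congr 1
        exact Finset.prod_congr rfl fun t ht => by
          rw [Function.update_of_ne (ne_of_mem_of_not_mem ht ha),
            Function.update_of_ne (ne_of_mem_of_not_mem ht ha)]
  have h1 := key Finset.univ
  rw [Finset.card_univ, Fintype.card_fin] at h1
  refine le_trans (le_of_eq ?_) h1
  congr 1
  funext X
  congr 1
  by_cases h : X ∈ slabs k y η
  · rw [indicator_of_mem h]
    exact (Finset.prod_eq_one fun t _ => by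
      rw [indicator_of_mem (show X t ∈ slab y η from h t)]; rfl).symm
  · rw [indicator_of_notMem h]
    obtain ⟨t, ht⟩ := not_forall.1 h
    exact (Finset.prod_eq_zero (Finset.mem_univ t)
      (indicator_of_notMem (show X t ∉ slab y η from ht) _)).symm

lemma meas_slabs2 {α : Type} [MeasurableSpace α] {f : α → Fin k → Euc d} {g : α → Euc d}
    (hf : Measurable f) (hg : Measurable g) (η : ℝ) :
    MeasurableSet {w | f w ∈ slabs k (g w) η} := by
  have : {w | f w ∈ slabs k (g w) η} = ⋂ t, {w | |⟪f w t, g w⟫| ≤ η} := by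
    ext w; simp [slabs]
  rw [this]
  exact MeasurableSet.iInter fun t => measurableSet_le (by fun_prop) measurable_const

lemma meas_ind {α : Type} [MeasurableSpace α] {f : α → Fin k → Euc d} {g : α → Euc d}
    (hf : Measurable f) (hg : Measurable g) (η : ℝ) :
    Measurable fun w => (slabs k (g w) η).indicator (1 : (Fin k → Euc d) → ℝ≥0∞) (f w) :=
  measurable_one.indicator (meas_slabs2 hf hg η)

lemma moment {ν : Measure (Euc d)} [IsFiniteMeasure ν] (s0 : Euc d) {η : ℝ} (hη : 0 < η)
    {q : ℕ} (hq : q ≤ d) {D : ℝ≥0∞}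
    (hD : ∀ (b : OrthonormalBasis (Fin d) ℝ (Euc d)) (i : ℕ), i < q →
      ∫⁻ s, (ENNReal.ofReal ‖tl b i (s - s0)‖)⁻¹ ^ k ∂ν ≤ D) (n : ℕ) :
    ∀ (i : ℕ) (v : Fin d → Euc d) (H : (Fin k → Euc d) → ℝ≥0∞), i + n ≤ q → Measurable H →
      (∀ X t e, (∀ l : Fin d, l < i → ⟪e, v l⟫ = 0) → H (Function.update X t (X t + e)) = H X) →
      ∫⁻ X, H X * ν {s | X ∈ slabs k (s - s0) η} ^ n ∂gam d k ≤
        (ENNReal.ofReal η ^ k * D) ^ n * ∫⁻ X, H X ∂gam d k := by
  classical
  have hS : MeasurableSet {w : (Fin k → Euc d) × Euc d | w.1 ∈ slabs k (w.2 - s0) η} :=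
    meas_slabs2 measurable_fst (measurable_snd.sub_const s0) η
  have hF : Measurable fun X : Fin k → Euc d => ν {s | X ∈ slabs k (s - s0) η} :=
    measurable_measure_prodMk_left hS
  have hI : Measurable fun w : (Fin k → Euc d) × Euc d =>
      (slabs k (w.2 - s0) η).indicator (1 : (Fin k → Euc d) → ℝ≥0∞) w.1 :=
    meas_ind measurable_fst (measurable_snd.sub_const s0) η
  induction n with
  | zero => intro i v H _ _ _; simp
  | succ n ih =>
    intro i v H hi hH hinv
    have hid : i < d := by omega
    obtain ⟨b, hb⟩ : ∃ b : OrthonormalBasis (Fin d) ℝ (Euc d), ∀ l l' : Fin d, l < l' →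
        ⟪b l', v l⟫ = 0 :=
      ⟨InnerProductSpace.gramSchmidtOrthonormalBasis (by simp) v, fun l l' h =>
        InnerProductSpace.gramSchmidtOrthonormalBasis_inv_triangular _ v h⟩
    have h1 : ∀ X, H X * ν {s | X ∈ slabs k (s - s0) η} ^ (n + 1) =
        ∫⁻ s, H X * (slabs k (s - s0) η).indicator 1 X *
          ν {s | X ∈ slabs k (s - s0) η} ^ n ∂ν := by
      intro X
      have h2 : MeasurableSet {s | X ∈ slabs k (s - s0) η} := measurable_prodMk_left hS
      have hm : Measurable fun s => (slabs k (s - s0) η).indicator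
          (1 : (Fin k → Euc d) → ℝ≥0∞) X := meas_ind measurable_const (measurable_id.sub_const s0) η
      have hm2 : Measurable fun s => H X * (slabs k (s - s0) η).indicator
          (1 : (Fin k → Euc d) → ℝ≥0∞) X := hm.const_mul _
      rw [lintegral_mul_const _ hm2, lintegral_const_mul _ hm, pow_succ', ← mul_assoc,
        ← lintegral_indicator_one h2]
      rfl
    simp only [h1]
    rw [lintegral_lintegral_swap (((hH.comp measurable_fst).mul hI).mul
      ((hF.comp measurable_fst).pow_const n)).aemeasurable]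
    have h2 : ∀ s, ∫⁻ X, H X * (slabs k (s - s0) η).indicator 1 X *
        ν {s | X ∈ slabs k (s - s0) η} ^ n ∂gam d k ≤
        ((ENNReal.ofReal η ^ k * D) ^ n * ENNReal.ofReal η ^ k * ∫⁻ X, H X ∂gam d k) *
          (ENNReal.ofReal ‖tl b i (s - s0)‖)⁻¹ ^ k := by
      intro s
      have hm : Measurable fun X => (slabs k (s - s0) η).indicator
          (1 : (Fin k → Euc d) → ℝ≥0∞) X := meas_ind measurable_id measurable_const η
      refine (ih (i + 1) (Function.update v ⟨i, hid⟩ (s - s0))
        (fun X => H X * (slabs k (s - s0) η).indicator 1 X) (by omega) (hH.mul hm) ?_).trans ?_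
      · intro X t e he
        beta_reduce
        rw [hinv X t e fun l hl => by
          have := he l (by omega)
          rwa [Function.update_of_ne (fun h => by rw [h] at hl; exact lt_irrefl _ hl)] at this]
        congr 1
        have h3 := he ⟨i, hid⟩ (Nat.lt_succ_self i)
        rw [Function.update_self] at h3
        have h4 : ∀ t', ⟪Function.update X t (X t + e) t', s - s0⟫ = ⟪X t', s - s0⟫ := by
          intro t'
          rcases eq_or_ne t' t with rfl | h
          · rw [Function.update_self, inner_add_left, h3, add_zero]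
          · rw [Function.update_of_ne h]
        simp only [indicator, slabs, mem_ofPred_eq, h4, Pi.one_apply]
        congr
      · refine (mul_le_mul_right (rows_le hH (e := tl b i (s - s0))
          (by rw [inner_tl, norm_tl_sq]) (fun X t θ => hinv X t _ fun l hl => ?_) hη) _).trans
          (le_of_eq ?_)
        · rw [real_inner_smul_left, tl_apply, sum_inner, Finset.sum_eq_zero, mul_zero]
          intro l' hl'
          rw [real_inner_smul_left, hb l l' (Nat.lt_of_lt_of_le hl (Finset.mem_filter.1 hl').2),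
            mul_zero]
        · rw [mul_pow]; ring
    refine (lintegral_mono h2).trans ?_
    rw [lintegral_const_mul _ (by
      have := (tl b i).continuous_of_finiteDimensional
      fun_prop)]
    refine (mul_le_mul_right (hD b i (by omega)) _).trans (le_of_eq ?_)
    ring

lemma lintegral_norm_le : ∫⁻ x, ENNReal.ofReal ‖x‖ ∂stdGaussian (Euc d) ≤ ENNReal.ofReal √d := by
  rcases Nat.eq_zero_or_pos d with rfl | hd
  · simp [Subsingleton.elim (α := Euc 0) _ 0]
  have hd0 : (0 : ℝ) < √d := by positivity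
  have h1 : ∫⁻ x, ENNReal.ofReal (x ^ 2) ∂gaussianReal 0 1 = 1 := by
    have h2 := variance_fun_id_gaussianReal (μ := 0) (v := 1)
    rw [variance_of_integral_eq_zero measurable_id'.aemeasurable integral_id_gaussianReal] at h2
    have hi : Integrable (fun x : ℝ => x ^ 2) (gaussianReal 0 1) :=
      (memLp_id_gaussianReal 2).integrable_sq
    rw [← ofReal_integral_eq_lintegral_ofReal hi (ae_of_all _ fun x => sq_nonneg _), h2]
    simp
  have h2 : ∫⁻ x, ENNReal.ofReal (‖x‖ ^ 2) ∂stdGaussian (Euc d) = d := by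
    rw [← map_pi_eq_stdGaussian, lintegral_map (by fun_prop) (by fun_prop)]
    simp only [EuclideanSpace.real_norm_sq_eq]
    simp_rw [ENNReal.ofReal_sum_of_nonneg fun i _ => sq_nonneg _]
    rw [lintegral_finsetSum _ fun i _ => by fun_prop]
    have h3 : ∀ i : Fin d, ∫⁻ a : Fin d → ℝ, ENNReal.ofReal (a i ^ 2)
        ∂Measure.pi (fun _ => gaussianReal 0 1) = 1 := by
      intro i
      rw [← h1, ← (measurePreserving_eval (fun _ : Fin d => gaussianReal 0 1) i).lintegral_comp
        (by fun_prop)]
    simp [h3]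
  calc _ ≤ ∫⁻ x, (ENNReal.ofReal (1 / (2 * √d)) * ENNReal.ofReal (‖x‖ ^ 2) +
        ENNReal.ofReal (√d / 2)) ∂stdGaussian (Euc d) := by
        refine lintegral_mono fun x => ?_
        rw [← ENNReal.ofReal_mul (by positivity), ← ENNReal.ofReal_add (by positivity)
          (by positivity)]
        apply ENNReal.ofReal_le_ofReal
        rw [← sub_nonneg]
        have : 1 / (2 * √d) * ‖x‖ ^ 2 + √d / 2 - ‖x‖ = (‖x‖ - √d) ^ 2 / (2 * √d) := by
          field_simp; ring
        rw [this]; positivity
    _ = _ := by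
        rw [lintegral_add_right _ measurable_const, lintegral_const_mul _ (by fun_prop), h2,
          lintegral_const, measure_univ, mul_one, ← ENNReal.ofReal_natCast,
          ← ENNReal.ofReal_mul (by positivity), ← ENNReal.ofReal_add (by positivity)
          (by positivity)]
        congr 1
        nth_rewrite 2 [← Real.mul_self_sqrt (Nat.cast_nonneg d)]
        field_simp; ring

/-- The pairs of rows and labels produced by signals in a ball. -/
def Om (k : ℕ) (x : Euc d) (r : ℝ) : Set ((Fin k → Euc d) × (Fin k → ℝ)) :=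
  {w | ∃ s ∈ closedBall x r, w.2 = lab w.1 s}

lemma closed_Om (x : Euc d) (r : ℝ) : IsClosed (Om k x r) := by
  have : CompactSpace (closedBall x r) := isCompact_iff_compactSpace.1 (isCompact_closedBall x r)
  have h1 : IsClosed {p : ((Fin k → Euc d) × (Fin k → ℝ)) × closedBall x r |
      p.1.2 = lab p.1.1 p.2.1} := isClosed_eq (by fun_prop) (by fun_prop)
  convert isClosedMap_fst_of_compactSpace _ h1 using 1
  ext w
  simp [Om]

lemma vol_Om (hk : 0 < k) (hkd : k ≤ d) (hdk : d ≤ 8 * k) (x : Euc d) {r : ℝ} (hr : 0 < r) :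
    ((gam d k).prod volume) (Om k x r) ≤ ENNReal.ofReal ((14 * r) ^ k) := by
  classical
  have hk0 : (0 : ℝ) < k := by exact_mod_cast hk
  have hw : 0 < r / √(2 * k) := by positivity
  have h1 : ∀ X : Fin k → Euc d, volume (Prod.mk X ⁻¹' Om k x r) ≤
      (∏ t, ENNReal.ofReal ‖X t‖) * ENNReal.ofReal ((7 * (r / √(2 * k))) ^ k) := by
    intro X
    obtain ⟨b, hb⟩ : ∃ b : OrthonormalBasis (Fin d) ℝ (Euc d), ∀ (t : Fin k) (l' : Fin d),
        (t : ℕ) < l' → ⟪b l', X t⟫ = 0 := by
      refine ⟨InnerProductSpace.gramSchmidtOrthonormalBasis (by simp)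
        (fun l : Fin d => if h : (l : ℕ) < k then X ⟨l, h⟩ else 0), fun t l' h => ?_⟩
      have := InnerProductSpace.gramSchmidtOrthonormalBasis_inv_triangular (𝕜 := ℝ)
        (E := Euc d) (ι := Fin d) (by simp)
        (fun l : Fin d => if h : (l : ℕ) < k then X ⟨l, h⟩ else 0) (i := Fin.castLE hkd t) h
      simpa using this
    let T : Matrix (Fin k) (Fin k) ℝ := Matrix.of fun t j => ⟪b (Fin.castLE hkd j), X t⟫
    have hsum : ∀ f : Fin d → ℝ, ∑ j : Fin k, f (Fin.castLE hkd j) =
        ∑ l ∈ Finset.univ.map (Fin.castLEEmb hkd), f l := fun f => by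
      rw [Finset.sum_map]; rfl
    have h2 : Prod.mk X ⁻¹' Om k x r ⊆ (fun Y => Y + -lab X x) ⁻¹' (Matrix.toLin' T ''
        {z : Fin k → ℝ | ∑ i, (z i / (r / √(2 * k))) ^ 2 ≤ 2 * Fintype.card (Fin k)}) := by
      rintro Y ⟨s, hs, hY⟩
      refine ⟨fun j => ⟪b (Fin.castLE hkd j), s - x⟫, ?_, ?_⟩
      · simp only [mem_ofPred_eq, Fintype.card_fin, div_pow]
        rw [← Finset.sum_div, Real.sq_sqrt (by positivity), div_le_iff₀ (by positivity),
          mul_div_cancel₀ _ (by positivity), hsum fun l => ⟪b l, s - x⟫ ^ 2]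
        refine (Finset.sum_le_univ_sum_of_nonneg fun _ => sq_nonneg _).trans ?_
        rw [sum_sq_inner]
        exact pow_le_pow_left₀ (norm_nonneg _) (by simpa [dist_eq_norm] using hs) 2
      · funext t
        simp only at hY
        simp only [hY, Matrix.toLin'_apply, Matrix.mulVec, dotProduct, T, Pi.add_apply, Pi.neg_apply, ← sub_eq_add_neg, lab,
          Matrix.of_apply]
        rw [← inner_sub_right, ← b.sum_inner_mul_inner,
          hsum fun l => ⟪b l, X t⟫ * ⟪b l, s - x⟫]
        simp only [real_inner_comm (b _) (X t)]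
        refine Finset.sum_subset (Finset.subset_univ _) fun l _ hl => ?_
        rw [hb t l, zero_mul]
        by_contra h
        exact hl (Finset.mem_map.2 ⟨⟨l, by omega⟩, Finset.mem_univ _, rfl⟩)
    refine (measure_mono h2).trans ?_
    rw [measure_preimage_add_right, Measure.addHaar_image_linearMap, LinearMap.det_toLin',
      Matrix.det_of_isLowerTriangular T fun t j h => hb t _ h, Finset.abs_prod,
      ENNReal.ofReal_prod_of_nonneg fun _ _ => abs_nonneg _]
    gcongr with t
    · refine (abs_real_inner_le_norm (b (Fin.castLE hkd t)) (X t)).trans ?_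
      rw [b.orthonormal.1, one_mul]
    · simpa using vol_ellipsoid (fun _ : Fin k => r / √(2 * k)) fun _ => hw
  rw [Measure.prod_apply (closed_Om x r).measurableSet]
  refine (lintegral_mono h1).trans ?_
  rw [lintegral_mul_const' _ _ ENNReal.ofReal_ne_top, gam,
    lintegral_pi_prod _ (fun _ x => ENNReal.ofReal ‖x‖) fun _ => by fun_prop]
  refine (mul_le_mul_left (Finset.prod_le_pow_card _ _ _ fun _ _ => lintegral_norm_le) _).trans ?_
  rw [Finset.card_univ, Fintype.card_fin, ← ENNReal.ofReal_pow (by positivity),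
    ← ENNReal.ofReal_mul (by positivity), ← mul_pow]
  apply ENNReal.ofReal_le_ofReal
  apply pow_le_pow_left₀ (by positivity)
  have h3 : √d ≤ 2 * √(2 * k) := by
    rw [Real.sqrt_le_left (by positivity), mul_pow, Real.sq_sqrt (by positivity)]
    have : (d : ℝ) ≤ 8 * k := by exact_mod_cast hdk
    linarith
  calc _ ≤ 2 * √(2 * k) * (7 * (r / √(2 * k))) := by gcongr
    _ = _ := by field_simp; norm_num

end Vale.Agent.P309
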