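import Vale.Agent.P309.Defs

namespace Vale.Agent.P309

open MeasureTheory ProbabilityTheory Metric Set
open scoped ENNReal RealInnerProductSpace Pointwise

lemma lintegral_pi_prod {ι α : Type} [Fintype ι] [MeasurableSpace α] [Nonempty α]
    (μ : Measure α) [SigmaFinite μ] (f : ι → α → ℝ≥0∞) (hf : ∀ i, Measurable (f i)) :
    ∫⁻ x, ∏ i, f i (x i) ∂Measure.pi (fun _ : ι => μ) = ∏ i, ∫⁻ y, f i y ∂μ := by
  classical
  have hm : Measurable fun x : ι → α => ∏ i, f i (x i) :=
    Finset.measurable_prod _ fun i _ => (hf i).comp (measurable_pi_apply i)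
  have key : ∀ s : Finset ι, (∫⋯∫⁻_s, (fun x => ∏ i, f i (x i)) ∂fun _ => μ) =
      fun x => (∏ i ∈ s, ∫⁻ y, f i y ∂μ) * ∏ i ∈ sᶜ, f i (x i) := by
    intro s
    induction s using Finset.induction_on with
    | empty => simp
    | insert a s ha ih =>
      funext x
      rw [lmarginal_insert _ hm ha, ih, Finset.prod_insert ha]
      have h1 : ∀ y, ∏ i ∈ sᶜ, f i (Function.update x a y i) =
          (∏ i ∈ (insert a s)ᶜ, f i (x i)) * f a y := by
        intro y
        rw [← Finset.prod_erase_mul _ _ (Finset.mem_compl.2 ha), Function.update_self,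
          Finset.compl_insert]
        congr 1
        exact Finset.prod_congr rfl fun i hi => by
          rw [Function.update_of_ne (Finset.ne_of_mem_erase hi)]
      simp only [h1, ← mul_assoc]
      rw [lintegral_const_mul _ (hf a)]
      ring
  rw [lintegral_eq_lmarginal_univ (fun _ => Classical.arbitrary α), key]
  simp

lemma vol_ellipsoid {ι : Type} [Fintype ι] (w : ι → ℝ) (hw : ∀ i, 0 < w i) :
    volume {z : ι → ℝ | ∑ i, (z i / w i) ^ 2 ≤ 2 * Fintype.card ι} ≤
      ENNReal.ofReal (∏ i, 7 * w i) := by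
  let v : ι → NNReal := fun i => ⟨w i ^ 2, sq_nonneg _⟩
  have hv : ∀ i, v i ≠ 0 := fun i h => (pow_pos (hw i) 2).ne' (congrArg Subtype.val h)
  have hS : MeasurableSet {z : ι → ℝ | ∑ i, (z i / w i) ^ 2 ≤ 2 * Fintype.card ι} :=
    measurableSet_le (by fun_prop) measurable_const
  have h1 := lintegral_pi_prod volume (fun i => gaussianPDF 0 (v i))
    fun i => measurable_gaussianPDF _ _
  simp only [lintegral_gaussianPDF_eq_one _ (hv _), Finset.prod_const_one] at h1
  rw [← lintegral_indicator_one hS, ← mul_one (ENNReal.ofReal _), ← h1,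
    ← lintegral_const_mul' _ _ ENNReal.ofReal_ne_top]
  refine lintegral_mono fun z => ?_
  by_cases hz : z ∈ {z : ι → ℝ | ∑ i, (z i / w i) ^ 2 ≤ 2 * Fintype.card ι}
  · rw [indicator_of_mem hz]
    simp only [gaussianPDF]
    rw [← ENNReal.ofReal_prod_of_nonneg fun i _ => gaussianPDFReal_nonneg _ _ _,
      ← ENNReal.ofReal_mul (Finset.prod_nonneg fun i _ => by have := hw i; positivity),
      ← Finset.prod_mul_distrib, Pi.one_apply, ENNReal.one_le_ofReal]
    have h2 : ∀ i, Real.exp (1 - (z i / w i) ^ 2 / 2) ≤ 7 * w i * gaussianPDFReal 0 (v i) (z i) := by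
      intro i
      have h3 := hw i
      have h4 : √(2 * Real.pi * w i ^ 2) ≤ 2.51 * w i := by
        rw [Real.sqrt_le_left (by positivity)]
        nlinarith [Real.pi_lt_d2, sq_nonneg (w i)]
      have h5 : 0 < √(2 * Real.pi * w i ^ 2) := by positivity
      have h6 : (v i : ℝ) = w i ^ 2 := rfl
      rw [gaussianPDFReal, h6, sub_zero, sub_eq_add_neg, Real.exp_add, ← mul_assoc]
      have h7 : -((z i / w i) ^ 2 / 2) = -z i ^ 2 / (2 * w i ^ 2) := by field_simp
      rw [h7]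
      apply mul_le_mul_of_nonneg_right _ (Real.exp_pos _).le
      rw [← div_eq_mul_inv, le_div_iff₀ h5]
      nlinarith [Real.exp_one_lt_d9, Real.exp_pos 1]
    refine le_trans ?_ (Finset.prod_le_prod (fun i _ => (Real.exp_pos _).le) fun i _ => h2 i)
    rw [← Real.exp_sum, Real.one_le_exp_iff, Finset.sum_sub_distrib, ← Finset.sum_div]
    simp only [Finset.sum_const, Finset.card_univ, nsmul_eq_mul, mul_one]
    simp only [mem_ofPred_eq] at hz
    linarith
  · rw [indicator_of_notMem hz]; exact bot_le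

variable {d : ℕ}

/-- The index of the dyadic cube of level `j` containing `s`. -/
noncomputable def key (j : ℕ) (s : Euc d) : Fin d → ℤ := fun i => ⌊2 ^ j * √d * s i⌋

lemma measurable_key (j : ℕ) : Measurable (key (d := d) j) := by
  refine measurable_pi_lambda _ fun i => Int.measurable_floor.comp ?_
  fun_prop

lemma meas_cube (j : ℕ) (Z : Set (Fin d → ℤ)) : MeasurableSet (key (d := d) j ⁻¹' Z) :=
  measurable_key j (MeasurableSet.of_discrete)

lemma key_succ (j : ℕ) (s : Euc d) : key j s = fun i => key (j + 1) s i / 2 := by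
  funext i
  simp only [key]
  rw [show (2 : ℤ) = ((2 : ℕ) : ℤ) from rfl, ← Int.floor_div_natCast]
  congr 1
  push_cast
  ring

lemma key_dist {j : ℕ} {s s' : Euc d} (h : key j s = key j s') : ‖s - s'‖ ≤ 2⁻¹ ^ j := by
  rcases Nat.eq_zero_or_pos d with rfl | hd
  · rw [Subsingleton.elim (s - s') 0, norm_zero]; positivity
  have hd0 : (0 : ℝ) < d := by exact_mod_cast hd
  have h1 : ∀ i, (s i - s' i) ^ 2 ≤ (2⁻¹ ^ j) ^ 2 / d := by
    intro i
    have h2 := (Int.abs_sub_lt_one_of_floor_eq_floor (congrFun h i)).le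
    rw [← mul_sub, ← sq_le_one_iff_abs_le_one, mul_pow, mul_pow, Real.sq_sqrt hd0.le] at h2
    rw [le_div_iff₀ hd0, inv_pow, inv_pow, ← one_div, le_div_iff₀ (by positivity)]
    linarith
  rw [EuclideanSpace.norm_eq, Real.sqrt_le_left (by positivity)]
  calc _ ≤ ∑ _i : Fin d, (2⁻¹ ^ j) ^ 2 / (d : ℝ) := Finset.sum_le_sum fun i _ => by
        simpa using h1 i
    _ = _ := by simp; field_simp

lemma vol_cube (hd : 0 < d) (j : ℕ) (z : Fin d → ℤ) :
    volume (key (d := d) j ⁻¹' {z}) = ENNReal.ofReal ((2⁻¹ ^ j / √d) ^ d) := by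
  have hd0 : (0 : ℝ) < d := by exact_mod_cast hd
  have hc : (0 : ℝ) < 2 ^ j * √d := by positivity
  have h1 : key (d := d) j ⁻¹' {z} = WithLp.ofLp ⁻¹' Set.pi univ fun i =>
      Ico (z i / (2 ^ j * √d) : ℝ) ((z i + 1) / (2 ^ j * √d)) := by
    ext s
    simp only [mem_preimage, mem_singleton_iff, funext_iff, key, Int.floor_eq_iff, mem_pi,
      mem_univ, true_imp_iff, mem_Ico, div_le_iff₀' hc, lt_div_iff₀' hc]
  rw [h1, (PiLp.volume_preserving_ofLp (Fin d)).measure_preimage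
    (MeasurableSet.univ_pi fun i => measurableSet_Ico).nullMeasurableSet, Real.volume_pi_Ico,
    ← ENNReal.ofReal_prod_of_nonneg fun i _ => by rw [← sub_div]; simp]
  congr 1
  simp only [← sub_div, add_sub_cancel_left, Finset.prod_const, Finset.card_univ, Fintype.card_fin]
  congr 1
  rw [inv_pow]; field_simp

lemma meas_le_of_cubes {ν μ : Measure (Euc d)} {a : ℝ≥0∞} {j : ℕ}
    (h : ∀ z, ν (key j ⁻¹' {z}) ≤ a * μ (key j ⁻¹' {z})) (Z : Set (Fin d → ℤ)) :
    ν (key j ⁻¹' Z) ≤ a * μ (key j ⁻¹' Z) := by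
  rw [← tsum_measure_preimage_singleton (to_countable Z) fun y _ => meas_cube j _,
    ← tsum_measure_preimage_singleton (to_countable Z) fun y _ => meas_cube j _,
    ← ENNReal.tsum_mul_left]
  exact ENNReal.tsum_le_tsum fun z => h z

/-- The component of `y` along the basis vectors of index at least `i`. -/
noncomputable def tl (b : OrthonormalBasis (Fin d) ℝ (Euc d)) (i : ℕ) : Euc d →ₗ[ℝ] Euc d :=
  ∑ l ∈ Finset.univ.filter fun l : Fin d => i ≤ l, (innerₛₗ ℝ (b l)).smulRight (b l)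

lemma tl_apply (b : OrthonormalBasis (Fin d) ℝ (Euc d)) (i : ℕ) (y : Euc d) :
    tl b i y = ∑ l ∈ Finset.univ.filter fun l : Fin d => i ≤ l, ⟪b l, y⟫ • b l := by
  simp [tl, LinearMap.sum_apply]

lemma inner_tl (b : OrthonormalBasis (Fin d) ℝ (Euc d)) (i : ℕ) (y : Euc d) :
    ⟪tl b i y, y⟫ = ∑ l ∈ Finset.univ.filter fun l : Fin d => i ≤ l, ⟪b l, y⟫ ^ 2 := by
  rw [tl_apply, sum_inner]
  exact Finset.sum_congr rfl fun l _ => by rw [real_inner_smul_left, sq]

lemma norm_tl_sq (b : OrthonormalBasis (Fin d) ℝ (Euc d)) (i : ℕ) (y : Euc d) :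
    ‖tl b i y‖ ^ 2 = ∑ l ∈ Finset.univ.filter fun l : Fin d => i ≤ l, ⟪b l, y⟫ ^ 2 := by
  rw [← real_inner_self_eq_norm_sq, tl_apply, b.orthonormal.inner_sum]
  simp [sq]

lemma sum_sq_inner (b : OrthonormalBasis (Fin d) ℝ (Euc d)) (y : Euc d) :
    ∑ l, ⟪b l, y⟫ ^ 2 = ‖y‖ ^ 2 := by
  rw [← b.sum_sq_norm_inner_right]
  simp

lemma norm_tl_le (b : OrthonormalBasis (Fin d) ℝ (Euc d)) (i : ℕ) (y : Euc d) :
    ‖tl b i y‖ ≤ ‖y‖ := by
  apply le_of_sq_le_sq _ (norm_nonneg _)
  rw [norm_tl_sq, ← sum_sq_inner b]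
  exact Finset.sum_le_sum_of_subset_of_nonneg (Finset.filter_subset _ _) fun _ _ _ => sq_nonneg _

lemma vol_tube (hd : 0 < d) (b : OrthonormalBasis (Fin d) ℝ (Euc d)) {i : ℕ} (hi : i ≤ d)
    (x : Euc d) {r δ : ℝ} (hr : 0 < r) (hδ : 0 < δ) :
    volume {y : Euc d | ‖y - x‖ ≤ 2 * r ∧ ‖tl b i (y - x)‖ ≤ 2 * δ} ≤
      ENNReal.ofReal (14 ^ d * (r / δ) ^ i * (δ / √d) ^ d) := by
  have hd0 : (0 : ℝ) < d := by exact_mod_cast hd
  have hsd : (0 : ℝ) < √d := by positivity
  let w : Fin d → ℝ := fun l => if i ≤ l then 2 * δ / √d else 2 * r / √d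
  have hw : ∀ l, 0 < w l := fun l => by simp only [w]; split_ifs <;> positivity
  have hmp : MeasurePreserving (fun y : Euc d => WithLp.ofLp (b.repr (y - x))) :=
    (PiLp.volume_preserving_ofLp (Fin d)).comp
      (b.measurePreserving_repr.comp (measurePreserving_sub_right volume x))
  have hS : MeasurableSet {z : Fin d → ℝ | ∑ i, (z i / w i) ^ 2 ≤ 2 * Fintype.card (Fin d)} :=
    measurableSet_le (by fun_prop) measurable_const
  refine le_trans (measure_mono ?_) ((hmp.measure_preimage hS.nullMeasurableSet).le.trans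
    ((vol_ellipsoid w hw).trans (le_of_eq ?_)))
  · rintro y ⟨h1, h2⟩
    simp only [mem_preimage, mem_ofPred_eq, Fintype.card_fin, b.repr_apply_apply]
    have h3 := pow_le_pow_left₀ (norm_nonneg _) h1 2
    have h4 := pow_le_pow_left₀ (norm_nonneg _) h2 2
    rw [norm_tl_sq] at h4
    rw [← sum_sq_inner b] at h3
    rw [← Finset.sum_filter_add_sum_filter_not Finset.univ fun l : Fin d => i ≤ l]
    have h5 : ∑ l ∈ Finset.univ.filter fun l : Fin d => i ≤ l, (⟪b l, y - x⟫ / w l) ^ 2 ≤ d := by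
      calc _ = (∑ l ∈ Finset.univ.filter fun l : Fin d => i ≤ l, ⟪b l, y - x⟫ ^ 2) /
            (2 * δ) ^ 2 * d := by
            rw [Finset.sum_div, Finset.sum_mul]
            refine Finset.sum_congr rfl fun l hl => ?_
            simp only [w, if_pos (Finset.mem_filter.1 hl).2]
            rw [div_pow, div_pow, Real.sq_sqrt hd0.le]; field_simp
        _ ≤ 1 * d := by gcongr; exact div_le_one_of_le₀ h4 (by positivity)
        _ = _ := one_mul _
    have h6 : ∑ l ∈ Finset.univ.filter fun l : Fin d => ¬ i ≤ l, (⟪b l, y - x⟫ / w l) ^ 2 ≤ d := by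
      calc _ = (∑ l ∈ Finset.univ.filter fun l : Fin d => ¬ i ≤ l, ⟪b l, y - x⟫ ^ 2) /
            (2 * r) ^ 2 * d := by
            rw [Finset.sum_div, Finset.sum_mul]
            refine Finset.sum_congr rfl fun l hl => ?_
            simp only [w, if_neg (Finset.mem_filter.1 hl).2]
            rw [div_pow, div_pow, Real.sq_sqrt hd0.le]; field_simp
        _ ≤ 1 * d := by
            gcongr
            exact div_le_one_of_le₀ ((Finset.sum_le_sum_of_subset_of_nonneg
              (Finset.filter_subset _ _) fun _ _ _ => sq_nonneg _).trans h3) (by positivity)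
        _ = _ := one_mul _
    linarith
  · congr 1
    have h1 : ∀ l : Fin d, 7 * w l = (14 * (δ / √d)) * if (l : ℕ) < i then r / δ else 1 := by
      intro l
      simp only [w]
      by_cases h : i ≤ l
      · rw [if_pos h, if_neg (not_lt.2 h)]; ring
      · rw [if_neg h, if_pos (not_le.1 h)]; field_simp; ring
    simp only [h1]
    rw [Finset.prod_mul_distrib, Finset.prod_ite, Finset.prod_const, Finset.prod_const,
      Finset.prod_const_one, Fin.card_filter_val_lt, min_eq_right hi, Finset.card_univ,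
      Fintype.card_fin, mul_pow]
    ring

/-- Frostman measures give small mass to tubes. -/
lemma meas_tube (hd : 0 < d) {ν : Measure (Euc d)} {j : ℕ} {a : ℝ≥0∞}
    (hν : ∀ z, ν (key j ⁻¹' {z}) ≤ a) (b : OrthonormalBasis (Fin d) ℝ (Euc d)) {i : ℕ}
    (hi : i ≤ d) (x : Euc d) {r : ℝ} (hr : 2⁻¹ ^ j ≤ r) :
    ν {y : Euc d | ‖y - x‖ ≤ r ∧ ‖tl b i (y - x)‖ ≤ 2⁻¹ ^ j} ≤
      a * ENNReal.ofReal (14 ^ d * (r / 2⁻¹ ^ j) ^ i) := by
  have hd0 : (0 : ℝ) < d := by exact_mod_cast hd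
  have hδ : (0 : ℝ) < 2⁻¹ ^ j := by positivity
  obtain ⟨c, hc⟩ : ∃ c, c = ENNReal.ofReal ((2⁻¹ ^ j / √d) ^ d) := ⟨_, rfl⟩
  have hc0 : c ≠ 0 := by rw [hc]; exact (ENNReal.ofReal_pos.2 (by positivity)).ne'
  have hc1 : c ≠ ⊤ := by rw [hc]; exact ENNReal.ofReal_ne_top
  have h1 := meas_le_of_cubes (ν := ν) (μ := volume) (a := a * c⁻¹) (j := j) (fun z => by
    rw [vol_cube hd, ← hc, mul_assoc, ENNReal.inv_mul_cancel hc0 hc1, mul_one]; exact hν z)
    (key j '' {y : Euc d | ‖y - x‖ ≤ r ∧ ‖tl b i (y - x)‖ ≤ 2⁻¹ ^ j})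
  refine (measure_mono (subset_preimage_image _ _)).trans (h1.trans ?_)
  have h2 : key j ⁻¹' (key j '' {y : Euc d | ‖y - x‖ ≤ r ∧ ‖tl b i (y - x)‖ ≤ 2⁻¹ ^ j}) ⊆
      {y : Euc d | ‖y - x‖ ≤ 2 * r ∧ ‖tl b i (y - x)‖ ≤ 2 * 2⁻¹ ^ j} := by
    rintro y ⟨y', ⟨h3, h4⟩, h5⟩
    have h6 := key_dist h5.symm
    have e : y - x = (y - y') + (y' - x) := by abel
    constructor
    · rw [e]; linarith [norm_add_le (y - y') (y' - x)]
    · rw [e, map_add]
      linarith [norm_add_le (tl b i (y - y')) (tl b i (y' - x)), norm_tl_le b i (y - y')]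
  rw [mul_assoc]
  gcongr
  refine (mul_le_mul_right ((measure_mono h2).trans (vol_tube hd b hi x (hδ.trans_le hr) hδ)) _).trans
    (le_of_eq ?_)
  rw [ENNReal.ofReal_mul (by have := hδ.trans_le hr; positivity), ← hc, mul_comm c⁻¹, mul_assoc,
    ENNReal.mul_inv_cancel hc0 hc1, mul_one]

/-- The uniform measure on the sphere as a measure on the ambient space. -/
noncomputable def sig (d : ℕ) : Measure (Euc d) := (unifSphere d).map Subtype.val

lemma unif_univ_le : unifSphere d univ ≤ 1 := by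
  rw [unifSphere, Measure.smul_apply, smul_eq_mul]
  exact ENNReal.inv_mul_le_one _

instance : IsFiniteMeasure (unifSphere d) := ⟨unif_univ_le.trans_lt ENNReal.one_lt_top⟩

instance : IsFiniteMeasure (sig d) := by unfold sig; infer_instance

lemma sig_ball (hd : 0 < d) (x : Euc d) {δ : ℝ} (hδ : 0 < δ) :
    sig d (closedBall x δ) ≤ ENNReal.ofReal (3 ^ d * δ ^ (d - 1)) := by
  have hd0 : (0 : ℝ) < d := by exact_mod_cast hd
  have : Nontrivial (Euc d) := Module.nontrivial_of_finrank_pos (R := ℝ) (by simpa using hd)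
  by_cases hne : (closedBall x δ ∩ sphere 0 1).Nonempty
  swap
  · rw [sig, Measure.map_apply measurable_subtype_coe measurableSet_closedBall]
    have : (Subtype.val ⁻¹' closedBall x δ : Set (Sph d)) = ∅ := by
      ext u
      exact ⟨fun h => hne ⟨u.1, h, u.2⟩, fun h => h.elim⟩
    rw [this]; simp
  have hm : MeasurableSet (Subtype.val ⁻¹' closedBall x δ : Set (Sph d)) :=
    measurable_subtype_coe measurableSet_closedBall
  rw [sig, Measure.map_apply measurable_subtype_coe measurableSet_closedBall, unifSphere,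
    Measure.smul_apply, smul_eq_mul, Measure.toSphere_apply' _ hm, Measure.toSphere_apply_univ]
  obtain ⟨C, hC⟩ : ∃ C : Set (Euc d), C = Ioo (0 : ℝ) 1 •
    (Subtype.val '' (Subtype.val ⁻¹' closedBall x δ : Set (Sph d))) := ⟨_, rfl⟩
  rw [← hC]
  obtain ⟨V, hV⟩ : ∃ V, V = volume (ball (0 : Euc d) 1) := ⟨_, rfl⟩
  have hV0 : V ≠ 0 := by rw [hV]; exact (measure_ball_pos _ _ one_pos).ne'
  have hV1 : V ≠ ⊤ := by rw [hV]; exact measure_ball_lt_top.ne
  have hC1 : volume C ≠ ⊤ := by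
    refine ne_top_of_le_ne_top hV1 (hV ▸ measure_mono ?_)
    rw [hC]
    rintro _ ⟨t, ht, _, ⟨u, _, rfl⟩, rfl⟩
    simp only [mem_ball_zero_iff, norm_smul, norm_eq_of_mem_sphere u, mul_one, Real.norm_eq_abs]
    rw [abs_of_pos ht.1]; exact ht.2
  have h1 : (1 + δ) • C ⊆ C ∪ closedBall x (2 * δ) := by
    rw [hC]
    rintro _ ⟨_, ⟨t, ht, _, ⟨u, hu, rfl⟩, rfl⟩, rfl⟩
    simp only [smul_smul]
    by_cases h : (1 + δ) * t < 1
    · exact Or.inl ⟨_, ⟨by have := ht.1; positivity, h⟩, _, ⟨u, hu, rfl⟩, rfl⟩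
    · right
      rw [mem_closedBall, dist_eq_norm]
      have e : ((1 + δ) * t) • u.1 - x = ((1 + δ) * t - 1) • u.1 + (u.1 - x) := by
        rw [sub_smul, one_smul]; abel
      have h2 : ‖u.1 - x‖ ≤ δ := by simpa [dist_eq_norm] using hu
      rw [e]
      refine (norm_add_le _ _).trans ?_
      rw [norm_smul, norm_eq_of_mem_sphere u, mul_one, Real.norm_eq_abs,
        abs_of_nonneg (by linarith)]
      nlinarith [ht.2]
  have h2 := (measure_mono (μ := volume) h1).trans (measure_union_le _ _)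
  rw [Measure.addHaar_smul, Measure.addHaar_closedBall _ _ (by positivity), ← hV,
    finrank_euclideanSpace_fin] at h2
  have h3 : (1 : ℝ) + δ ≤ |(1 + δ) ^ d| := by
    rw [abs_of_pos (by positivity)]
    exact le_self_pow₀ (by linarith) hd.ne'
  have h4 : ENNReal.ofReal δ * volume C ≤ ENNReal.ofReal ((2 * δ) ^ d) * V := by
    have h5 := (mul_le_mul_left (ENNReal.ofReal_le_ofReal h3) (volume C)).trans h2
    rw [ENNReal.ofReal_add zero_le_one hδ.le, ENNReal.ofReal_one, add_mul, one_mul] at h5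
    exact (ENNReal.add_le_add_iff_left hC1).1 h5
  have h5 : volume C ≤ ENNReal.ofReal (3 ^ d * δ ^ (d - 1)) * V := by
    rw [← ENNReal.mul_le_mul_iff_right (a := ENNReal.ofReal δ) (ENNReal.ofReal_pos.2 hδ).ne'
      ENNReal.ofReal_ne_top]
    refine h4.trans ?_
    rw [← mul_assoc, ← ENNReal.ofReal_mul hδ.le]
    gcongr
    rw [mul_pow, mul_left_comm, mul_pow_sub_one hd.ne']
    gcongr
    norm_num
  rw [← hV, finrank_euclideanSpace_fin, ENNReal.mul_inv (Or.inr hV1) (Or.inr hV0)]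
  have hd1 : (d : ℝ≥0∞) ≠ 0 := by exact_mod_cast hd.ne'
  calc _ = ((d : ℝ≥0∞)⁻¹ * d) * (V⁻¹ * volume C) := by ring
    _ ≤ 1 * (V⁻¹ * (ENNReal.ofReal (3 ^ d * δ ^ (d - 1)) * V)) := by
        gcongr
        exact ENNReal.inv_mul_le_one _
    _ = _ := by
        rw [one_mul, mul_comm, mul_assoc, ENNReal.mul_inv_cancel hV0 hV1, mul_one]

end Vale.Agent.P309
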