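import Vale.Agent.P309.Dom

namespace Vale.Agent.P309

open MeasureTheory ProbabilityTheory Metric Set Filter
open scoped ENNReal RealInnerProductSpace

variable {d k N : ℕ}

/-- The law of the state after `n` further samples, given the samples. -/
noncomputable def comp (L : Learner d N) (t0 : ℕ) (m : Fin N)
    (w : (Fin k → Euc d) × (Fin k → ℝ)) : ℕ → Fin N × Bool → ℝ≥0∞
  | 0 => fun z => if z = (m, false) then 1 else 0
  | n + 1 => fun z => if h : n < k then
      ∑ m', comp L t0 m w n (m', false) * L.step (t0 + n) m' (w.1 ⟨n, h⟩, w.2 ⟨n, h⟩) z else 0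

lemma meas_comp (L : Learner d N) (t0 : ℕ) (m : Fin N) (n : ℕ) :
    ∀ z, Measurable fun w : (Fin k → Euc d) × (Fin k → ℝ) => comp L t0 m w n z := by
  induction n with
  | zero => exact fun z => measurable_const
  | succ n ih =>
    intro z
    by_cases h : n < k
    · simp only [comp, dif_pos h]
      exact Finset.measurable_sum _ fun m' _ => (ih _).mul
        ((L.step_measurable _ _ _).comp (by fun_prop))
    · simp only [comp, dif_neg h]
      exact measurable_const

lemma sum_false_le (f : Fin N × Bool → ℝ≥0∞) (b : Bool) : ∑ m, f (m, b) ≤ ∑ z, f z := by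
  rw [Fintype.sum_prod_type]
  exact Finset.sum_le_sum fun m _ =>
    Finset.single_le_sum (f := fun b => f (m, b)) (fun _ _ => bot_le) (Finset.mem_univ b)

lemma pmf_sum (p : PMF (Fin N × Bool)) : ∑ z, p z = 1 := by
  rw [← p.tsum_coe, tsum_fintype]

lemma sum_comp (L : Learner d N) (t0 : ℕ) (m : Fin N) (w : (Fin k → Euc d) × (Fin k → ℝ))
    (n : ℕ) : ∑ z, comp L t0 m w n z ≤ 1 := by
  induction n with
  | zero => simp [comp]
  | succ n ih =>
    by_cases h : n < k
    · simp only [comp, dif_pos h]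
      rw [Finset.sum_comm]
      simp only [← Finset.mul_sum, pmf_sum, mul_one]
      exact (sum_false_le _ _).trans ih
    · simp [comp, dif_neg h]

lemma comp_congr (L : Learner d N) (t0 : ℕ) (m : Fin N) {w w' : (Fin k → Euc d) × (Fin k → ℝ)}
    (n : ℕ) (h : ∀ t : Fin k, t < n → w.1 t = w'.1 t ∧ w.2 t = w'.2 t) :
    comp L t0 m w n = comp L t0 m w' n := by
  induction n with
  | zero => rfl
  | succ n ih =>
    funext z
    by_cases hn : n < k
    · simp only [comp, dif_pos hn, ih fun t ht => h t (by omega),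
        (h ⟨n, hn⟩ (Nat.lt_succ_self n)).1, (h ⟨n, hn⟩ (Nat.lt_succ_self n)).2]
    · simp only [comp, dif_neg hn]

lemma indep {F : (Fin k → Euc d) → ℝ≥0∞} {G : Euc d → ℝ≥0∞} (hF : Measurable F)
    (hG : Measurable G) (t : Fin k) (h : ∀ X x, F (Function.update X t x) = F X) :
    ∫⁻ X, F X * G (X t) ∂gam d k = (∫⁻ X, F X ∂gam d k) * ∫⁻ x, G x ∂stdGaussian (Euc d) := by
  rw [← lintegral_mul_const _ hF]
  refine lintegral_eq_of_lmarginal_eq {t} (hF.mul (hG.comp (measurable_pi_apply t)))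
    (hF.mul_const _) ?_
  funext X
  simp only [lmarginal_singleton, h, Function.update_self]
  rw [lintegral_const_mul _ hG, lintegral_const, measure_univ, mul_one]

lemma law_eq (L : Learner d N) (t0 : ℕ) (s : Euc d) (n : ℕ) (hn : n ≤ k) :
    ∀ z : Fin N × Bool, (n = 0 → z.2 = false) → L.law s (t0 + n) z =
      ∑ m, L.law s t0 (m, false) * pr (k := k) (fun w => comp L t0 m w n z) s := by
  induction n with
  | zero =>
    rintro ⟨m, b⟩ h
    obtain rfl : b = false := h rfl
    simp [pr, comp]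
  | succ n ih =>
    intro z _
    have hn' : n < k := hn
    have hl : Measurable fun X : Fin k → Euc d => (X, lab X s) :=
      Continuous.measurable (by fun_prop)
    have hF : ∀ m z, Measurable fun X : Fin k → Euc d => comp L t0 m (X, lab X s) n z :=
      fun m z => (meas_comp L t0 m n z).comp hl
    have hG : ∀ m, Measurable fun x : Euc d => L.step (t0 + n) m (x, ⟪x, s⟫) z :=
      fun m => (L.step_measurable _ _ _).comp (by fun_prop)
    have h1 : ∀ m, pr (k := k) (fun w => comp L t0 m w (n + 1) z) s =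
        ∑ m', pr (k := k) (fun w => comp L t0 m w n (m', false)) s *
          ∫⁻ x, L.step (t0 + n) m' (x, ⟪x, s⟫) z ∂stdGaussian (Euc d) := by
      intro m
      simp only [pr, comp, dif_pos hn']
      have h2 : ∀ m', Measurable fun X : Fin k → Euc d =>
          comp L t0 m (X, lab X s) n (m', false) *
            L.step (t0 + n) m' (X ⟨n, hn'⟩, lab X s ⟨n, hn'⟩) z := fun m' =>
        (hF _ _).mul ((hG m').comp (measurable_pi_apply _))
      rw [lintegral_finsetSum _ fun m' _ => h2 m']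
      refine Finset.sum_congr rfl fun m' _ => indep (hF _ _) (hG m') ⟨n, hn'⟩ fun X x => ?_
      rw [comp_congr L t0 m n (w' := (X, lab X s))]
      intro t ht
      have : t ≠ ⟨n, hn'⟩ := fun h => by rw [h] at ht; exact lt_irrefl _ ht
      simp [lab, Function.update_of_ne this]
    rw [← add_assoc, Learner.law]
    simp only [h1, ih hn'.le (_, false) fun _ => rfl, Finset.sum_mul, Finset.mul_sum, mul_assoc]
    exact Finset.sum_comm

lemma dom_law {β J M L' : ℕ} (hd : β + 2 * k + 1 = d) (hk : 0 < k) (hdk : d ≤ 8 * k)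
    (hL : M + 1 ≤ L' * k) (hN : N ≤ 2 ^ M) (L : Learner d N) (j : ℕ) :
    ∀ t ≤ j * k, ∃ v : Fin N × Bool → ℝ≥0∞,
      (∀ z, Dom (2 * k) (2 ^ (J * β)) (fun s => L.law s t z) (v z)) ∧
      ∑ z, v z ≤ 14 ^ d * loss d k (M + 1) L' ^ j := by
  induction j with
  | zero =>
    intro t ht
    obtain rfl : t = 0 := by omega
    refine ⟨_, fun z => ((dom_one (by omega) (by finiteness)).smul (L.init z)).mono
      (fun s _ => by simp [Learner.law]) le_rfl, ?_⟩
    rw [← Finset.sum_mul, pmf_sum]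
    simp
  | succ j ih =>
    intro t ht
    rcases le_or_gt t (j * k) with h | h
    · obtain ⟨v, h1, h2⟩ := ih t h
      exact ⟨v, h1, h2.trans (mul_le_mul_right (pow_le_pow_right₀ le_self_add (by omega)) _)⟩
    obtain ⟨v, h1, h2⟩ := ih _ le_rfl
    obtain ⟨n, rfl⟩ := Nat.exists_eq_add_of_le h.le
    have hO : Fintype.card (Fin N × Bool) ≤ 2 ^ (M + 1) := by
      simp only [Fintype.card_prod, Fintype.card_fin, Fintype.card_bool, pow_succ]
      omega
    choose w hw1 hw2 using fun m => dom_step hd hk hdk hL hO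
      (a := fun z w => comp L (j * k) m w n z) (meas_comp L _ m n)
      (fun w => sum_comp L _ m w n) (h1 (m, false))
    refine ⟨_, fun z => (Dom.sum fun m => hw1 m z).mono (fun s _ => (law_eq L _ s n
      (by rw [add_mul] at ht; omega) z (by omega)).le) le_rfl, ?_⟩
    rw [Finset.sum_comm]
    refine (Finset.sum_le_sum fun m _ => hw2 m).trans ?_
    rw [← Finset.mul_sum, pow_succ', mul_left_comm]
    exact mul_le_mul_right ((sum_false_le v _).trans h2) _

lemma meas_law (L : Learner d N) (t : ℕ) : ∀ z, Measurable fun s => L.law s t z := by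
  induction t with
  | zero => exact fun z => measurable_const
  | succ t ih =>
    intro z
    simp only [Learner.law]
    refine Finset.measurable_sum _ fun m _ => (ih _).mul ?_
    have h : Measurable fun w : Euc d × Euc d => L.step t m (w.2, ⟪w.2, w.1⟫) z :=
      (L.step_measurable _ _ _).comp (by fun_prop)
    exact h.lintegral_prod_right'

lemma near_sub {ε : ℝ} (s : Sph d) : near ε s ⊆ {u | dist s.1 u.1 ≤ ε} := by
  intro u hu
  have hu' : Real.arccos ⟪u.1, s.1⟫ ≤ ε := hu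
  have h0 := Real.arccos_nonneg ⟪u.1, s.1⟫
  have h1 := abs_real_inner_le_norm u.1 s.1
  rw [norm_eq_of_mem_sphere, norm_eq_of_mem_sphere, mul_one, abs_le] at h1
  have h2 := Real.one_sub_sq_div_two_le_cos (x := Real.arccos ⟪u.1, s.1⟫)
  rw [Real.cos_arccos h1.1 h1.2] at h2
  rw [mem_ofPred_eq, dist_comm, dist_eq_norm]
  apply le_of_sq_le_sq _ (h0.trans hu')
  rw [norm_sub_sq_real, norm_eq_of_mem_sphere, norm_eq_of_mem_sphere]
  nlinarith

lemma meas_hit (ε : ℝ) : MeasurableSet {w : Euc d × Sph d | dist w.1 w.2.1 ≤ ε} :=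
  (isClosed_le (by fun_prop) continuous_const).measurableSet

lemma hit_bound {β γ J : ℕ} (hd : β + γ + 1 = d) {f : Euc d → ℝ≥0∞} (hf : Measurable f)
    {v : ℝ≥0∞} (h : Dom γ (2 ^ (J * β)) f v) {ε : ℝ} (hε : 2⁻¹ ^ J ≤ ε) (μ : Measure (Sph d))
    [IsProbabilityMeasure μ] :
    ∫⁻ s, f s * μ {u | dist s u.1 ≤ ε} ∂sig d ≤ 3 ^ d * ENNReal.ofReal ε ^ β * v := by
  obtain ⟨χ, hχ⟩ : ∃ χ : Euc d × Sph d → ℝ≥0∞,
    χ = {w : Euc d × Sph d | dist w.1 w.2.1 ≤ ε}.indicator 1 := ⟨_, rfl⟩
  have hm : Measurable χ := hχ ▸ measurable_one.indicator (meas_hit ε)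
  have h1 : ∀ s, f s * μ {u | dist s u.1 ≤ ε} = ∫⁻ u, f s * χ (s, u) ∂μ := by
    intro s
    have h2 : MeasurableSet {u : Sph d | dist s u.1 ≤ ε} := measurable_prodMk_left (meas_hit ε)
    rw [← lintegral_indicator_one h2, ← lintegral_const_mul _ (measurable_one.indicator h2), hχ]
    rfl
  simp only [h1]
  rw [lintegral_lintegral_swap ((hf.comp measurable_fst).mul hm).aemeasurable]
  refine (lintegral_mono fun u => le_trans (le_of_eq ?_) (dom_ball hd h u.1 hε)).trans (by simp)
  rw [← lintegral_indicator measurableSet_closedBall, hχ]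
  refine lintegral_congr fun s => ?_
  by_cases hs : dist s u.1 ≤ ε
  · rw [indicator_of_mem (by exact hs), indicator_of_mem (by exact hs), Pi.one_apply, mul_one]
  · rw [indicator_of_notMem (by exact hs), indicator_of_notMem (by exact hs), mul_zero]

lemma success_le {β M L' j T : ℕ} (hd : β + 2 * k + 1 = d) (hk : 0 < k) (hdk : d ≤ 8 * k)
    (hL : M + 1 ≤ L' * k) (hN : N ≤ 2 ^ M) (L : Learner d N) (hT : T ≤ j * k) {ε : ℝ}
    (hε : 0 < ε) : L.success T ε ≤
      (T + 2) * (3 ^ d * ENNReal.ofReal ε ^ β * (14 ^ d * loss d k (M + 1) L' ^ j)) := by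
  obtain ⟨J, hJ⟩ := exists_pow_lt_of_lt_one hε (by norm_num : (2⁻¹ : ℝ) < 1)
  obtain ⟨G, hG⟩ : ∃ G : ℕ → Bool → Euc d → ℝ≥0∞, G = fun t b s =>
    ∑ m, L.law s t (m, b) * L.out t m {u | dist s u.1 ≤ ε} := ⟨_, rfl⟩
  have hm : ∀ t m b, Measurable fun s => L.law s t (m, b) * L.out t m {u | dist s u.1 ≤ ε} := by
    intro t m b
    have := L.out_prob t m
    exact (meas_law L t _).mul (measurable_measure_prodMk_left (meas_hit ε))
  have hGm : ∀ t b, Measurable (G t b) := fun t b =>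
    hG ▸ Finset.measurable_sum _ fun m _ => hm t m b
  have h1 : ∀ t ≤ T, ∀ b, ∫⁻ s, G t b s ∂sig d ≤
      3 ^ d * ENNReal.ofReal ε ^ β * (14 ^ d * loss d k (M + 1) L' ^ j) := by
    intro t ht b
    obtain ⟨v, h1, h2⟩ := dom_law (J := J) hd hk hdk hL hN L j t (ht.trans hT)
    rw [hG, lintegral_finsetSum _ fun m _ => hm t m b]
    refine (Finset.sum_le_sum fun m _ => ?_).trans
      ((Finset.mul_sum _ _ _).ge.trans (mul_le_mul_right ((sum_false_le v b).trans h2) _))
    have := L.out_prob t m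
    exact hit_bound hd (meas_law L t _) (h1 _) hJ.le _
  have h2 : Measurable fun s => ∑ t ∈ Finset.range (T + 1), G t true s :=
    Finset.measurable_sum _ fun t _ => hGm t _
  have h3 : Measurable fun s => ∑ t ∈ Finset.range (T + 1), G t true s + G T false s :=
    h2.add (hGm _ _)
  calc _ ≤ ∫⁻ s, ∑ t ∈ Finset.range (T + 1), G t true s + G T false s ∂sig d := by
        rw [sig, lintegral_map h3 measurable_subtype_coe, hG]
        refine lintegral_mono fun s => ?_
        have := near_sub (ε := ε) s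
        beta_reduce
        gcongr
    _ ≤ _ := by
        rw [lintegral_add_left h2, lintegral_finsetSum _ fun t _ => hGm t _]
        refine (add_le_add (Finset.sum_le_card_nsmul _ _ _ fun t ht =>
          h1 t (Nat.lt_succ_iff.1 (Finset.mem_range.1 ht)) _) (h1 T le_rfl _)).trans (le_of_eq ?_)
        rw [Finset.card_range, nsmul_eq_mul]
        push_cast
        ring

lemma loss_le {L L' : ℕ} (hL : L ≤ L' * k) :
    loss d k L L' ≤ 2 ^ (2 * L' + 6 * k + 6 * d + 4) := by
  have h0 : ∀ n : ℕ, (n : ℝ≥0∞) ≤ 2 ^ n := fun n => by exact_mod_cast n.lt_two_pow_self.le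
  have h1 : (L : ℝ≥0∞) ≤ 2 ^ L' * 2 ^ k :=
    le_trans (by exact_mod_cast hL) (mul_le_mul' (h0 L') (h0 k))
  obtain ⟨E, hE⟩ : ∃ E : ℝ≥0∞, E = 2 ^ L' * ((2 ^ 2) ^ d * (2 ^ 4) ^ d * 2 ^ k * 2 * (2 ^ 4) ^ k) :=
    ⟨_, rfl⟩
  have h2 : (2 : ℝ≥0∞) ^ L' * (3 ^ d * 14 ^ d * 2 ^ k * 2 * 14 ^ k) ≤ E := by
    rw [hE]; gcongr <;> norm_num
  have h3 : (3 : ℝ≥0∞) ^ d ≤ E := by
    refine le_trans ?_ h2
    calc (3 : ℝ≥0∞) ^ d = 1 ^ L' * (3 ^ d * 1 ^ d * 1 ^ k * 1 * 1 ^ k) := by simp
      _ ≤ _ := by gcongr <;> norm_num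
  have h4 : L * (2 * (2 ^ L' * (3 ^ d * 14 ^ d * 2 ^ k * 2 * 14 ^ k) + 3 ^ d)) ≤
      (2 : ℝ≥0∞) ^ (2 * L' + 6 * k + 6 * d + 3) := by
    calc _ ≤ 2 ^ L' * 2 ^ k * (2 * (E + E)) := by gcongr
      _ = _ := by rw [hE]; simp only [← two_mul, ← pow_mul]; ring
  rw [loss, pow_succ, mul_two ((2 : ℝ≥0∞) ^ (2 * L' + 6 * k + 6 * d + 3))]
  exact add_le_add (one_le_pow₀ one_le_two) h4

end Vale.Agent.P309
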